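import Vale.Agent.P083.Levels

/-!
Finite-rank approximation for representations of a C*-algebra generated by a Cuntz pair.
-/

namespace Vale.Agent.P083

open scoped InnerProductSpace TensorProduct
open Finset TensorProduct Filter Topology

variable {B : Type*} [CStarAlgebra B]

lemma cuntz_orth {s₁ s₂ : B} (h₁ : star s₁ * s₁ = 1) (h : s₁ * star s₁ + s₂ * star s₂ = 1) :
    star s₁ * s₂ = 0 := by
  have e : star s₁ * s₂ * star (star s₁ * s₂) = 0 := by
    have := congrArg (fun y => star s₁ * y * s₁) h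
    simp only [mul_add, add_mul, mul_one, h₁] at this
    rw [← mul_assoc, h₁, one_mul, h₁, add_eq_left] at this
    rw [star_mul, star_star, ← this]
    simp only [mul_assoc]
  exact (CStarRing.mul_star_self_eq_zero_iff _).1 e

/-- a Cuntz pair indexed by `Fin 2` -/
structure CuntzFam (S : Fin 2 → B) : Prop where
  orth : ∀ i j, star (S i) * S j = if i = j then 1 else 0
  sum : ∑ i, S i * star (S i) = 1

lemma cuntzFam_of {s₁ s₂ : B} (h₁ : star s₁ * s₁ = 1) (h₂ : star s₂ * s₂ = 1)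
    (h : s₁ * star s₁ + s₂ * star s₂ = 1) : CuntzFam ![s₁, s₂] where
  orth i j := by
    fin_cases i <;> fin_cases j
    · simpa using h₁
    · simpa using cuntz_orth h₁ h
    · simpa using cuntz_orth h₂ (by rw [add_comm]; exact h)
    · simpa using h₂
  sum := by simpa using h

variable {H E : Type*} [NormedAddCommGroup H] [InnerProductSpace ℂ H] [CompleteSpace H]
  [NormedAddCommGroup E] [InnerProductSpace ℂ E]

lemma star_rep_inner (π : B →⋆ₐ[ℂ] (H →L[ℂ] H)) (b : B) (x y : H) :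
    ⟪π b x, y⟫_ℂ = ⟪x, π (star b) y⟫_ℂ := by
  rw [map_star, ContinuousLinearMap.star_eq_adjoint, ContinuousLinearMap.adjoint_inner_right]

variable (E) in
/-- amplification of a representation -/
noncomputable def amp (π : B →⋆ₐ[ℂ] (H →L[ℂ] H)) : B →ₐ[ℂ] (H ⊗[ℂ] E →L[ℂ] H ⊗[ℂ] E) where
  toFun b := (π b).rTensor E
  map_one' := by rw [map_one]; exact ContinuousLinearMap.rTensor_one E
  map_mul' a b := by rw [map_mul]; exact ContinuousLinearMap.rTensor_mul E _ _
  map_zero' := by rw [map_zero]; exact ContinuousLinearMap.rTensor_zero E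
  map_add' a b := by rw [map_add]; exact ContinuousLinearMap.rTensor_add E _ _
  commutes' c := by
    rw [Algebra.algebraMap_eq_smul_one, Algebra.algebraMap_eq_smul_one, map_smul, map_one,
      ContinuousLinearMap.rTensor_smul, ContinuousLinearMap.rTensor_one]

lemma amp_apply (π : B →⋆ₐ[ℂ] (H →L[ℂ] H)) (b : B) :
    amp E π b = mapL (π b) (1 : E →L[ℂ] E) :=
  ContinuousLinearMap.rTensor_eq_mapL E (π b)

lemma amp_tmul (π : B →⋆ₐ[ℂ] (H →L[ℂ] H)) (b : B) (h : H) (x : E) :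
    amp E π b (h ⊗ₜ[ℂ] x) = π b h ⊗ₜ[ℂ] x := rfl

lemma amp_inner (π : B →⋆ₐ[ℂ] (H →L[ℂ] H)) (b : B) (x y : H ⊗[ℂ] E) :
    ⟪amp E π b x, y⟫_ℂ = ⟪x, amp E π (star b) y⟫_ℂ := by
  rw [amp_apply, amp_apply]
  exact inner_mapL_left (star_rep_inner π b) (fun _ _ => rfl) x y

lemma norm_amp_le (π : B →⋆ₐ[ℂ] (H →L[ℂ] H)) (b : B) : ‖amp E π b‖ ≤ ‖b‖ :=
  (ContinuousLinearMap.norm_rTensor_le E (π b)).trans (NonUnitalStarAlgHom.norm_apply_le π b)

lemma alg_mul_apply {F : Type*} [NormedAddCommGroup F] [InnerProductSpace ℂ F]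
    (π' : B →ₐ[ℂ] (F →L[ℂ] F)) (a b : B) (x : F) : π' a (π' b x) = π' (a * b) x := by
  rw [map_mul]; rfl

variable (π : B →⋆ₐ[ℂ] (H →L[ℂ] H)) (π' : B →ₐ[ℂ] (E →L[ℂ] E)) (S : Fin 2 → B)

/-- the layers of the Følner isometry -/
noncomputable def layer (h : H) : ℕ → (E →L[ℂ] H ⊗[ℂ] E)
  | 0 => mkL ℂ H E h
  | a + 1 => ∑ i, amp E π (S i) ∘L layer h a ∘L π' (star (S i))

lemma layer_zero (h : H) (x : E) : layer π π' S h 0 x = h ⊗ₜ[ℂ] x := rfl

lemma layer_succ (h : H) (a : ℕ) (x : E) :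
    layer π π' S h (a + 1) x = ∑ i, amp E π (S i) (layer π π' S h a (π' (star (S i)) x)) := by
  simp [layer]

variable {S}

lemma layer_succ_S (hS : CuntzFam S) (h : H) (a : ℕ) (i : Fin 2) (x : E) :
    layer π π' S h (a + 1) (π' (S i) x) = amp E π (S i) (layer π π' S h a x) := by
  rw [layer_succ, Finset.sum_eq_single i]
  · rw [alg_mul_apply, hS.orth]; simp
  · intro j _ hj; rw [alg_mul_apply, hS.orth]; simp [hj]
  · simp

lemma star_layer_succ (hS : CuntzFam S) (h : H) (a : ℕ) (i : Fin 2) (x : E) :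
    amp E π (star (S i)) (layer π π' S h (a + 1) x) = layer π π' S h a (π' (star (S i)) x) := by
  rw [layer_succ, map_sum, Finset.sum_eq_single i]
  · rw [alg_mul_apply, hS.orth]; simp
  · intro j _ hj; rw [alg_mul_apply, hS.orth]; simp [hj.symm]
  · simp

lemma inner_layer_succ (hS : CuntzFam S) (h : H) (a b : ℕ) (x y : E) :
    ⟪layer π π' S h (a + 1) x, layer π π' S h (b + 1) y⟫_ℂ =
      ∑ i, ⟪layer π π' S h a (π' (star (S i)) x), layer π π' S h b (π' (star (S i)) y)⟫_ℂ := by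
  rw [layer_succ, sum_inner]
  refine Finset.sum_congr rfl fun i _ => ?_
  rw [amp_inner, star_layer_succ π π' hS]

variable {π'}

lemma inner_layer_self (hS : CuntzFam S)
    (hadj : ∀ b x y, ⟪π' b x, y⟫_ℂ = ⟪x, π' (star b) y⟫_ℂ) {h : H} (hh : ‖h‖ = 1) (a : ℕ) :
    ∀ x y : E, ⟪layer π π' S h a x, layer π π' S h a y⟫_ℂ = ⟪x, y⟫_ℂ := by
  induction a with
  | zero =>
    intro x y
    rw [layer_zero, layer_zero, inner_tmul, inner_self_eq_norm_sq_to_K, hh]; simp
  | succ a ih =>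
    intro x y
    rw [inner_layer_succ π π' hS]
    simp only [ih, hadj, star_star, alg_mul_apply]
    rw [← inner_sum, ← _root_.sum_apply, ← map_sum, hS.sum, map_one,
      one_apply_eq_self]

lemma norm_layer (hS : CuntzFam S)
    (hadj : ∀ b x y, ⟪π' b x, y⟫_ℂ = ⟪x, π' (star b) y⟫_ℂ) {h : H} (hh : ‖h‖ = 1) (a : ℕ)
    (x : E) : ‖layer π π' S h a x‖ = ‖x‖ := by
  rw [@norm_eq_sqrt_re_inner ℂ, @norm_eq_sqrt_re_inner ℂ, inner_layer_self π hS hadj hh]

lemma star_pow_layer (hS : CuntzFam S) (h : H) (d : ℕ) :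
    ∀ y : E, amp E π (star (S 0) ^ d) (layer π π' S h d y) = h ⊗ₜ[ℂ] π' (star (S 0) ^ d) y := by
  induction d with
  | zero => intro y; simp [layer_zero]
  | succ d ih =>
    intro y
    rw [pow_succ, ← alg_mul_apply, star_layer_succ π π' hS, ih, alg_mul_apply]

lemma star_pow_mul_pow (hS : CuntzFam S) (n : ℕ) : star (S 0) ^ n * S 0 ^ n = 1 := by
  induction n with
  | zero => simp
  | succ n ih =>
    rw [pow_succ, pow_succ', mul_assoc, ← mul_assoc (star (S 0)), hS.orth, if_pos rfl, one_mul, ih]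

lemma inner_layer_zero (hS : CuntzFam S) (h₀ : H) {M d : ℕ} (hd : d + 1 ≤ M) (x y : E) :
    ⟪layer π π' S (π (S 0 ^ M * S 1) h₀) 0 x,
      layer π π' S (π (S 0 ^ M * S 1) h₀) (d + 1) y⟫_ℂ = 0 := by
  obtain ⟨c, rfl⟩ := Nat.exists_eq_add_of_le hd
  have e1 : layer π π' S (π (S 0 ^ (d + 1 + c) * S 1) h₀) 0 x =
      amp E π (S 0 ^ (d + 1)) (π (S 0 ^ c * S 1) h₀ ⊗ₜ[ℂ] x) := by
    rw [layer_zero, amp_tmul, ← mul_apply_eq_comp, ← map_mul, ← mul_assoc, ← pow_add]
  have e2 : star (S 0 ^ c * S 1) * (S 0 ^ (d + 1 + c) * S 1) = 0 := by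
    rw [add_comm (d + 1) c, pow_add, pow_succ', star_mul, star_pow]
    simp only [← mul_assoc]
    rw [mul_assoc (star (S 1)), star_pow_mul_pow hS, mul_one, hS.orth]
    simp
  rw [e1, amp_inner, star_pow, star_pow_layer π hS, inner_tmul, star_rep_inner,
    ← mul_apply_eq_comp, ← map_mul, e2]
  simp

lemma inner_layer_lt (hS : CuntzFam S) (h₀ : H) {M d : ℕ} (hd : d + 1 ≤ M) (a : ℕ) :
    ∀ x y : E, ⟪layer π π' S (π (S 0 ^ M * S 1) h₀) a x,
      layer π π' S (π (S 0 ^ M * S 1) h₀) (a + (d + 1)) y⟫_ℂ = 0 := by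
  induction a with
  | zero => intro x y; rw [zero_add]; exact inner_layer_zero π hS h₀ hd x y
  | succ a ih =>
    intro x y
    rw [show a + 1 + (d + 1) = (a + (d + 1)) + 1 by ring, inner_layer_succ π π' hS]
    simp only [ih, Finset.sum_const_zero]

lemma inner_layer_ne (hS : CuntzFam S) (h₀ : H) {M a b : ℕ} (ha : a ≤ M) (hb : b ≤ M)
    (hab : a ≠ b) (x y : E) : ⟪layer π π' S (π (S 0 ^ M * S 1) h₀) a x,
      layer π π' S (π (S 0 ^ M * S 1) h₀) b y⟫_ℂ = 0 := by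
  wlog hlt : a < b generalizing a b x y
  · exact (inner_eq_zero_symm (𝕜 := ℂ) (E := H ⊗[ℂ] E)).1
      (this hb ha hab.symm y x (lt_of_le_of_ne (not_lt.1 hlt) hab.symm))
  obtain ⟨d, rfl⟩ := Nat.exists_eq_add_of_lt hlt
  exact inner_layer_lt π hS h₀ (by omega) a x y

lemma norm_marker (hS : CuntzFam S) {h₀ : H} (hh : ‖h₀‖ = 1) (M : ℕ) :
    ‖π (S 0 ^ M * S 1) h₀‖ = 1 := by
  have e : star (S 0 ^ M * S 1) * (S 0 ^ M * S 1) = 1 := by
    rw [star_mul, star_pow]
    simp only [← mul_assoc]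
    rw [mul_assoc (star (S 1)), star_pow_mul_pow hS, mul_one, hS.orth]
    simp
  rw [← hh, @norm_eq_sqrt_re_inner ℂ, @norm_eq_sqrt_re_inner ℂ, star_rep_inner,
    ← mul_apply_eq_comp, ← map_mul, e, map_one, one_apply_eq_self]

lemma layer_natural (h : H) {R : E →L[ℂ] E} (hR : ∀ b, Commute R (π' b)) (a : ℕ) :
    ∀ x, mapL (1 : H →L[ℂ] H) R (layer π π' S h a x) = layer π π' S h a (R x) := by
  induction a with
  | zero => intro x; rfl
  | succ a ih =>
    intro x
    rw [layer_succ, layer_succ, map_sum]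
    refine Finset.sum_congr rfl fun i _ => ?_
    have e1 : π' (star (S i)) (R x) = R (π' (star (S i)) x) :=
      (congrArg (fun T : E →L[ℂ] E => T x) (hR (star (S i))).eq).symm
    rw [e1, ← ih, amp_apply, ← mul_apply_eq_comp, ← mul_apply_eq_comp (mapL _ _), ← mapL_mul,
      ← mapL_mul, one_mul, mul_one, one_mul, mul_one]

lemma layer_rank (h : H) (a : ℕ) : ∃ K : Submodule ℂ H, FiniteDimensional ℂ K ∧
    ∀ W : Submodule ℂ E, (∀ b, ∀ x ∈ W, π' b x ∈ W) → ∀ x ∈ W, layer π π' S h a x ∈ tens K W := by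
  induction a with
  | zero =>
    exact ⟨Submodule.span ℂ {h}, inferInstance, fun W _ x hx =>
      tmul_mem_tens (Submodule.mem_span_singleton_self h) hx⟩
  | succ a ih =>
    obtain ⟨K, hK, ih⟩ := ih
    refine ⟨K.map (π (S 0)).toLinearMap ⊔ K.map (π (S 1)).toLinearMap, inferInstance,
      fun W hW x hx => ?_⟩
    rw [layer_succ, Fin.sum_univ_two]
    refine Submodule.add_mem _ ?_ ?_
    · rw [amp_apply]
      exact mapL_mem_tens 
        (fun k hk => Submodule.mem_sup_left (Submodule.mem_map_of_mem hk)) (fun _ hw => hw)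
        (ih W hW _ (hW _ x hx))
    · rw [amp_apply]
      exact mapL_mem_tens 
        (fun k hk => Submodule.mem_sup_right (Submodule.mem_map_of_mem hk)) (fun _ hw => hw)
        (ih W hW _ (hW _ x hx))

lemma layer_sum_rank (h : H) (N : ℕ) : ∃ K : Submodule ℂ H, FiniteDimensional ℂ K ∧
    ∀ W : Submodule ℂ E, (∀ b, ∀ x ∈ W, π' b x ∈ W) → ∀ x ∈ W,
      ∑ a ∈ range N, layer π π' S h a x ∈ tens K W := by
  induction N with
  | zero => exact ⟨⊥, inferInstance, fun W _ x _ => by simp⟩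
  | succ N ih =>
    obtain ⟨K, hK, ih⟩ := ih
    obtain ⟨K', hK', h'⟩ := layer_rank π (π' := π') (S := S) h N
    refine ⟨K ⊔ K', inferInstance, fun W hW x hx => ?_⟩
    rw [Finset.sum_range_succ]
    exact Submodule.add_mem _ (tens_mono le_sup_left le_rfl (ih W hW x hx))
      (tens_mono le_sup_right le_rfl (h' W hW x hx))

variable (π' S) in
/-- the normalized Følner isometry -/
noncomputable def folner (h₀ : H) (N : ℕ) : E →L[ℂ] H ⊗[ℂ] E :=
  (((√((N + 1 : ℕ) : ℝ))⁻¹ : ℝ) : ℂ) •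
    ∑ a ∈ range (N + 1), layer π π' S (π (S 0 ^ (N + 1) * S 1) h₀) a

lemma folner_apply (h₀ : H) (N : ℕ) (x : E) : folner π π' S h₀ N x =
    (((√((N + 1 : ℕ) : ℝ))⁻¹ : ℝ) : ℂ) •
      ∑ a ∈ range (N + 1), layer π π' S (π (S 0 ^ (N + 1) * S 1) h₀) a x := by
  rw [folner, smul_apply, _root_.sum_apply]

lemma norm_folner (hS : CuntzFam S) (hadj : ∀ b x y, ⟪π' b x, y⟫_ℂ = ⟪x, π' (star b) y⟫_ℂ)
    {h₀ : H} (hh : ‖h₀‖ = 1) (N : ℕ) (x : E) : ‖folner π π' S h₀ N x‖ = ‖x‖ := by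
  have e : ‖∑ a ∈ range (N + 1), layer π π' S (π (S 0 ^ (N + 1) * S 1) h₀) a x‖ ^ 2 =
      ((N + 1 : ℕ) : ℝ) * ‖x‖ ^ 2 := by
    rw [norm_sum_sq_of_orth]
    · simp only [norm_layer π hS hadj (norm_marker π hS hh _), Finset.sum_const, card_range,
        nsmul_eq_mul]
    · intro a ha b hb hab
      exact inner_layer_ne π hS h₀ (mem_range.1 ha).le (mem_range.1 hb).le hab x x
  have hN : (0 : ℝ) < ((N + 1 : ℕ) : ℝ) := by positivity
  rw [← sq_eq_sq₀ (norm_nonneg _) (norm_nonneg _), folner_apply, norm_smul, mul_pow, e,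
    Complex.norm_real, norm_inv, Real.norm_of_nonneg (Real.sqrt_nonneg _), inv_pow,
    Real.sq_sqrt hN.le, ← mul_assoc, inv_mul_cancel₀ hN.ne', one_mul]

variable (π' S) in
/-- the intertwining defect -/
noncomputable def defect (h₀ : H) (N : ℕ) (b : B) (x : E) : H ⊗[ℂ] E :=
  amp E π b (folner π π' S h₀ N x) - folner π π' S h₀ N (π' b x)

variable (π' S) in
/-- asymptotic intertwining -/
def Intertw (h₀ : H) (b : B) : Prop :=
  ∀ ε : ℝ, 0 < ε → ∀ᶠ N in atTop, ∀ x, ‖defect π π' S h₀ N b x‖ ≤ ε * ‖x‖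

lemma eventually_inv_sqrt {ε : ℝ} (hε : 0 < ε) :
    ∀ᶠ N : ℕ in atTop, (√((N + 1 : ℕ) : ℝ))⁻¹ * 2 ≤ ε := by
  have h1 : Tendsto (fun N : ℕ => (√((N + 1 : ℕ) : ℝ))⁻¹ * 2) atTop (𝓝 (0 * 2)) := by
    refine Tendsto.mul_const _ (tendsto_inv_atTop_zero.comp (Real.tendsto_sqrt_atTop.comp ?_))
    exact tendsto_natCast_atTop_atTop.comp (tendsto_add_atTop_nat 1)
  rw [zero_mul] at h1
  exact h1.eventually (ge_mem_nhds hε)

lemma norm_S (hS : CuntzFam S) (i : Fin 2) : ‖S i‖ ≤ 1 := by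
  have h1 : ‖S i‖ * ‖S i‖ = ‖(1 : B)‖ := by
    rw [← CStarRing.norm_star_mul_self, hS.orth, if_pos rfl]
  have h2 : ‖(1 : B)‖ * ‖(1 : B)‖ = ‖(1 : B)‖ := by
    rw [← CStarRing.norm_star_mul_self, star_one, one_mul]
  have h3 : ‖(1 : B)‖ ≤ 1 := by nlinarith [norm_nonneg (1 : B)]
  nlinarith [norm_nonneg (S i)]

section

variable (hS : CuntzFam S) (hadj : ∀ b x y, ⟪π' b x, y⟫_ℂ = ⟪x, π' (star b) y⟫_ℂ)
  (hn : ∀ b, ‖π' b‖ ≤ ‖b‖) {h₀ : H} (hh : ‖h₀‖ = 1)

include hn in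
lemma norm_alg_apply_le (b : B) (x : E) : ‖π' b x‖ ≤ ‖b‖ * ‖x‖ :=
  ((π' b).le_opNorm x).trans (mul_le_mul_of_nonneg_right (hn b) (norm_nonneg _))

lemma norm_amp_apply_le (b : B) (x : H ⊗[ℂ] E) : ‖amp E π b x‖ ≤ ‖b‖ * ‖x‖ :=
  ((amp E π b).le_opNorm x).trans (mul_le_mul_of_nonneg_right (norm_amp_le π b) (norm_nonneg _))

include hS hadj hn hh

lemma intertw_S (i : Fin 2) : Intertw π π' S h₀ (S i) := by
  intro ε hε
  filter_upwards [eventually_inv_sqrt hε] with N hN x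
  set h := π (S 0 ^ (N + 1) * S 1) h₀ with hdef
  have hh' : ‖h‖ = 1 := norm_marker π hS hh _
  have e : defect π π' S h₀ N (S i) x = (((√((N + 1 : ℕ) : ℝ))⁻¹ : ℝ) : ℂ) •
      (layer π π' S h (N + 1) (π' (S i) x) - layer π π' S h 0 (π' (S i) x)) := by
    rw [defect, folner_apply, folner_apply, map_smul, ← smul_sub, map_sum,
      ← Finset.sum_sub_distrib, ← hdef]
    simp only [← layer_succ_S π π' hS]
    rw [Finset.sum_range_sub (fun a => layer π π' S h a (π' (S i) x))]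
  have e2 : ‖π' (S i) x‖ ≤ ‖x‖ :=
    (norm_alg_apply_le hn _ x).trans (mul_le_of_le_one_left (norm_nonneg _) (norm_S hS i))
  rw [e, norm_smul, Complex.norm_real, Real.norm_of_nonneg (by positivity)]
  calc _ ≤ (√((N + 1 : ℕ) : ℝ))⁻¹ * (2 * ‖x‖) := by
        gcongr
        refine (norm_sub_le _ _).trans ?_
        rw [norm_layer π hS hadj hh', norm_layer π hS hadj hh']
        linarith
    _ ≤ _ := by rw [← mul_assoc]; gcongr

lemma intertw_star_S (i : Fin 2) : Intertw π π' S h₀ (star (S i)) := by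
  intro ε hε
  filter_upwards [eventually_inv_sqrt hε] with N hN x
  set h := π (S 0 ^ (N + 1) * S 1) h₀ with hdef
  have hh' : ‖h‖ = 1 := norm_marker π hS hh _
  have e : defect π π' S h₀ N (star (S i)) x = (((√((N + 1 : ℕ) : ℝ))⁻¹ : ℝ) : ℂ) •
      (amp E π (star (S i)) (layer π π' S h 0 x) - layer π π' S h N (π' (star (S i)) x)) := by
    rw [defect, folner_apply, folner_apply, map_smul, ← smul_sub, map_sum, ← hdef,
      Finset.sum_range_succ', Finset.sum_range_succ]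
    simp only [star_layer_succ π π' hS]
    rw [add_sub_add_left_eq_sub]
  have hs : ‖star (S i)‖ ≤ 1 := by rw [norm_star]; exact norm_S hS i
  have e2 : ‖π' (star (S i)) x‖ ≤ ‖x‖ :=
    (norm_alg_apply_le hn _ x).trans (mul_le_of_le_one_left (norm_nonneg _) hs)
  have e3 : ‖amp E π (star (S i)) (layer π π' S h 0 x)‖ ≤ ‖x‖ := by
    refine (norm_amp_apply_le π _ _).trans ?_
    rw [norm_layer π hS hadj hh']
    exact mul_le_of_le_one_left (norm_nonneg _) hs
  rw [e, norm_smul, Complex.norm_real, Real.norm_of_nonneg (by positivity)]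
  calc _ ≤ (√((N + 1 : ℕ) : ℝ))⁻¹ * (2 * ‖x‖) := by
        gcongr
        refine (norm_sub_le _ _).trans ?_
        rw [norm_layer π hS hadj hh']
        linarith
    _ ≤ _ := by rw [← mul_assoc]; gcongr

omit hS hadj hn hh in
lemma defect_add (N : ℕ) (a b : B) (x : E) :
    defect π π' S h₀ N (a + b) x = defect π π' S h₀ N a x + defect π π' S h₀ N b x := by
  simp only [defect, map_add, add_apply]; abel

omit hS hadj hn hh in
lemma intertw_add {a b : B} (ha : Intertw π π' S h₀ a) (hb : Intertw π π' S h₀ b) :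
    Intertw π π' S h₀ (a + b) := by
  intro ε hε
  filter_upwards [ha (ε / 2) (by positivity), hb (ε / 2) (by positivity)] with N h1 h2 x
  rw [defect_add]
  refine (norm_add_le _ _).trans ?_
  linarith [h1 x, h2 x]

omit hS hadj hn hh in
lemma intertw_algebraMap (c : ℂ) : Intertw π π' S h₀ (algebraMap ℂ B c) := by
  intro ε hε
  refine Eventually.of_forall fun N x => ?_
  have : defect π π' S h₀ N (algebraMap ℂ B c) x = 0 := by
    simp only [defect, Algebra.algebraMap_eq_smul_one, map_smul, map_one, smul_apply,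
      one_apply_eq_self, sub_self]
  rw [this, norm_zero]; positivity

omit hS hadj hh in
lemma intertw_mul {a b : B} (ha : Intertw π π' S h₀ a) (hb : Intertw π π' S h₀ b) :
    Intertw π π' S h₀ (a * b) := by
  intro ε hε
  set C := ‖a‖ + ‖b‖ + 1 with hC
  have hC0 : 0 < C := by positivity
  filter_upwards [ha (ε / C) (by positivity), hb (ε / C) (by positivity)] with N h1 h2 x
  have e : defect π π' S h₀ N (a * b) x =
      amp E π a (defect π π' S h₀ N b x) + defect π π' S h₀ N a (π' b x) := by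
    simp only [defect, map_sub, alg_mul_apply]; abel
  rw [e]
  refine (norm_add_le _ _).trans ?_
  have a1 : ‖amp E π a (defect π π' S h₀ N b x)‖ ≤ ‖a‖ * (ε / C * ‖x‖) :=
    (norm_amp_apply_le π _ _).trans (mul_le_mul_of_nonneg_left (h2 x) (norm_nonneg _))
  have a2 : ‖defect π π' S h₀ N a (π' b x)‖ ≤ ε / C * (‖b‖ * ‖x‖) :=
    (h1 _).trans (mul_le_mul_of_nonneg_left (norm_alg_apply_le hn b x) (by positivity))
  have a3 : ε * ‖x‖ = C * (ε / C * ‖x‖) := by field_simp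
  have a4 : 0 ≤ ε / C * ‖x‖ := by positivity
  rw [a3, hC]
  nlinarith

lemma norm_defect_le (N : ℕ) (b : B) (x : E) : ‖defect π π' S h₀ N b x‖ ≤ 2 * ‖b‖ * ‖x‖ := by
  refine (norm_sub_le _ _).trans ?_
  have a1 := norm_amp_apply_le π b (folner π π' S h₀ N x)
  rw [norm_folner π hS hadj hh] at a1 ⊢
  linarith [norm_alg_apply_le hn b x]

lemma intertw_all (hgen : (StarAlgebra.adjoin ℂ (Set.range S)).topologicalClosure = ⊤) (b : B) :
    Intertw π π' S h₀ b := by
  have h1 : ∀ b ∈ StarAlgebra.adjoin ℂ (Set.range S),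
      Intertw π π' S h₀ b ∧ Intertw π π' S h₀ (star b) := by
    intro b hb
    induction hb using StarAlgebra.adjoin_induction with
    | mem x hx =>
      obtain ⟨i, rfl⟩ := hx
      exact ⟨intertw_S π hS hadj hn hh i, intertw_star_S π hS hadj hn hh i⟩
    | algebraMap r =>
      exact ⟨intertw_algebraMap π r, by rw [← algebraMap_star_comm]; exact intertw_algebraMap π _⟩
    | add x y _ _ hx hy =>
      exact ⟨intertw_add π hx.1 hy.1, by rw [star_add]; exact intertw_add π hx.2 hy.2⟩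
    | mul x y _ _ hx hy =>
      exact ⟨intertw_mul π hn hx.1 hy.1, by rw [star_mul]; exact intertw_mul π hn hy.2 hx.2⟩
    | star x _ hx => exact ⟨hx.2, by rw [star_star]; exact hx.1⟩
  intro ε hε
  have hb : b ∈ closure (StarAlgebra.adjoin ℂ (Set.range S) : Set B) := by
    change b ∈ (StarAlgebra.adjoin ℂ (Set.range S)).topologicalClosure
    rw [hgen]; trivial
  obtain ⟨b', hb', hd⟩ := Metric.mem_closure_iff.1 hb (ε / 4) (by positivity)
  filter_upwards [(h1 b' hb').1 (ε / 2) (by positivity)] with N hN x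
  have e : b = b' + (b - b') := by abel
  rw [e, defect_add]
  refine (norm_add_le _ _).trans ?_
  have a1 := norm_defect_le π hS hadj hn hh N (b - b') x
  rw [dist_eq_norm] at hd
  have a2 : 2 * ‖b - b'‖ * ‖x‖ ≤ 2 * (ε / 4) * ‖x‖ := by gcongr
  linarith [hN x]

theorem cuntz_finite_rank
    (hgen : (StarAlgebra.adjoin ℂ (Set.range S)).topologicalClosure = ⊤) (u : Fin 4 → B)
    {ε : ℝ} (hε : 0 < ε) :
    ∃ (K : Submodule ℂ H) (_ : FiniteDimensional ℂ K) (J : E →L[ℂ] H ⊗[ℂ] E),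
      (∀ x, ‖J x‖ = ‖x‖) ∧
      (∀ W : Submodule ℂ E, (∀ b, ∀ x ∈ W, π' b x ∈ W) → ∀ x ∈ W, J x ∈ tens K W) ∧
      ∀ (a : Fin 4) (R : E →L[ℂ] E), ‖R‖ ≤ 1 → (∀ b, Commute R (π' b)) → ∀ x,
        ‖mapL (π (u a)) R (J x) - J x‖ ≤ ε * ‖x‖ + ‖R (π' (u a) x) - x‖ := by
  obtain ⟨N, hN⟩ := (eventually_all.2 fun a => intertw_all π hS hadj hn hh hgen (u a) ε hε).exists
  obtain ⟨K, hK, hK'⟩ :=
    layer_sum_rank π (π' := π') (S := S) (π (S 0 ^ (N + 1) * S 1) h₀) (N + 1)
  refine ⟨K, hK, folner π π' S h₀ N, norm_folner π hS hadj hh N, fun W hW x hx => ?_,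
    fun a R hR hc x => ?_⟩
  · rw [folner_apply]; exact Submodule.smul_mem _ _ (hK' W hW x hx)
  · have nat : ∀ y, mapL (1 : H →L[ℂ] H) R (folner π π' S h₀ N y) = folner π π' S h₀ N (R y) := by
      intro y
      rw [folner_apply, folner_apply, map_smul, map_sum]
      simp only [layer_natural π _ hc]
    have e1 : ∀ z, mapL (π (u a)) R z = mapL (1 : H →L[ℂ] H) R (amp E π (u a) z) := by
      intro z
      rw [amp_apply, ← mul_apply_eq_comp, ← mapL_mul, one_mul, mul_one]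
    have e : mapL (π (u a)) R (folner π π' S h₀ N x) - folner π π' S h₀ N x =
        mapL (1 : H →L[ℂ] H) R (defect π π' S h₀ N (u a) x) +
          folner π π' S h₀ N (R (π' (u a) x) - x) := by
      rw [e1, defect, map_sub, map_sub, nat]; abel
    rw [e]
    refine (norm_add_le _ _).trans (add_le_add ?_ (norm_folner π hS hadj hh N _).le)
    have a1 : ‖mapL (1 : H →L[ℂ] H) R‖ ≤ 1 := by
      refine (norm_mapL_le _ _).trans ?_
      exact mul_le_one₀ ContinuousLinearMap.norm_id_le (norm_nonneg _) hR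
    refine ((mapL (1 : H →L[ℂ] H) R).le_opNorm _).trans ?_
    exact (mul_le_of_le_one_left (norm_nonneg _) a1).trans (hN a x)

end

end Vale.Agent.P083
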