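import Mathlib

/-!
The norm ultrapower `B^ω = ℓ^∞(ℕ, B) / I_ω(B)` of a unital C*-algebra `B`.
`ℓ^∞(ℕ, B)` is Mathlib's C*-algebra `ℕ →ᵇ B` of bounded functions on the discrete space `ℕ`.
-/

namespace Vale.Agent.P083

open Filter Topology

/-- The two-sided ideal `I_ω(B)` of the bounded sequences `(b n)` with `lim_{n → ω} ‖b n‖ = 0`. -/
noncomputable def nullIdeal (B : Type*) [CStarAlgebra B] (ω : Ultrafilter ℕ) :
    TwoSidedIdeal (BoundedContinuousFunction ℕ B) :=
  TwoSidedIdeal.mk' {b | Tendsto (fun n => ‖b n‖) (ω : Filter ℕ) (𝓝 0)}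
    (by simp)
    (fun {x y} hx hy => squeeze_zero (fun _ => norm_nonneg _)
      (fun n => norm_add_le (x n) (y n)) (by simpa using hx.add hy))
    (fun {x} hx => by simpa using hx)
    (fun {x y} hy => squeeze_zero (fun _ => norm_nonneg _)
      (fun n => (norm_mul_le (x n) (y n)).trans
        (mul_le_mul_of_nonneg_right (x.norm_coe_le_norm n) (norm_nonneg _)))
      (by simpa using hy.const_mul ‖x‖))
    (fun {x y} hx => squeeze_zero (fun _ => norm_nonneg _)
      (fun n => (norm_mul_le (x n) (y n)).trans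
        (mul_le_mul_of_nonneg_left (y.norm_coe_le_norm n) (norm_nonneg _)))
      (by simpa using hx.mul_const ‖y‖))

/-- The norm ultrapower `B^ω = ℓ^∞(ℕ, B) / I_ω(B)`, with Mathlib's quotient ring and quotient
complex algebra structures. -/
abbrev Ultrapower (B : Type*) [CStarAlgebra B] (ω : Ultrafilter ℕ) : Type _ :=
  (nullIdeal B ω).ringCon.Quotient

/-- The involution of the quotient: the class of `(b n)` goes to the class of `(star (b n))`. -/
noncomputable instance starUltrapower (B : Type*) [CStarAlgebra B] (ω : Ultrafilter ℕ) :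
    Star (Ultrapower B ω) where
  star := Quotient.map' (fun b : BoundedContinuousFunction ℕ B => star b) (fun x y h => by
    have h1 : x - y ∈ nullIdeal B ω := ((nullIdeal B ω).rel_iff x y).1 h
    refine ((nullIdeal B ω).rel_iff _ _).2 ?_
    simp only [nullIdeal, TwoSidedIdeal.mem_mk', Set.mem_ofPred_eq] at h1 ⊢
    simpa [← star_sub] using h1)

end Vale.Agent.P083
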