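import Mathlib

/-!
Spectral gap for unitary representations (on pre-Hilbert spaces) of a group generated by four
elements of prime order `p ≥ 36` which pairwise satisfy Heisenberg relations.
-/

namespace Vale.Agent.P083

open scoped InnerProductSpace
open Finset

section Proj

variable {E : Type*} [NormedAddCommGroup E] [InnerProductSpace ℂ E]

/-- symmetric idempotent -/
structure SymIdem (P : E →L[ℂ] E) : Prop where
  symm : ∀ x y, ⟪P x, y⟫_ℂ = ⟪x, P y⟫_ℂ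
  idem : ∀ x, P (P x) = P x

lemma SymIdem.inner_self {P : E →L[ℂ] E} (h : SymIdem P) (x : E) :
    (⟪x, P x⟫_ℂ).re = ‖P x‖ ^ 2 := by
  have : ⟪x, P x⟫_ℂ = ⟪P x, P x⟫_ℂ := by rw [h.symm, h.idem]
  rw [this]; exact inner_self_eq_norm_sq (𝕜 := ℂ) _

lemma SymIdem.inner_eq_zero {P : E →L[ℂ] E} (h : SymIdem P) {x y : E} (hx : P x = x)
    (hy : P y = 0) : ⟪x, y⟫_ℂ = 0 := by
  rw [← hx, h.symm, hy, inner_zero_right]

lemma SymIdem.norm_compl_sq {P : E →L[ℂ] E} (h : SymIdem P) (x : E) :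
    ‖x - P x‖ ^ 2 = ‖x‖ ^ 2 - ‖P x‖ ^ 2 := by
  rw [norm_sub_sq (𝕜 := ℂ)]
  have := h.inner_self x
  simp only [RCLike.re_to_complex]
  linarith

lemma real_aux {X A N ε : ℝ} (hX : 0 ≤ X) (hA : 0 ≤ A) (hN0 : 0 ≤ N) (hε0 : 0 ≤ ε) (hε : ε ≤ 1)
    (h1 : A ^ 2 ≤ X * N) (h2 : N ≤ (1 + ε) * A) :
    0 ≤ N - (3 + ε) * A + (2 + 2 * ε) * X := by
  rcases hX.eq_or_lt with h | h
  · have : A = 0 := by
      rw [← h] at h1
      have : A ^ 2 ≤ 0 := by simpa using h1
      exact pow_eq_zero_iff (n := 2) (by norm_num) |>.1 (le_antisymm this (sq_nonneg _))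
    rw [this, ← h]; simpa using hN0
  · have hA1 : A ≤ (1 + ε) * X := by
      rcases hA.eq_or_lt with h0 | h0
      · rw [← h0]; positivity
      · have : A * A ≤ A * ((1 + ε) * X) := by nlinarith
        exact le_of_mul_le_mul_left this h0
    have hA2 : A ≤ 2 * X := by nlinarith
    have : 0 ≤ X * (N - (3 + ε) * A + (2 + 2 * ε) * X) := by
      nlinarith [mul_nonneg (sub_nonneg.2 hA1) (sub_nonneg.2 hA2)]
    exact nonneg_of_mul_nonneg_right (by linarith) h |> fun h => h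

lemma pair_generic {P Q : E →L[ℂ] E} (hP : SymIdem P) (hQ : SymIdem Q) {ε : ℝ} (hε0 : 0 ≤ ε)
    (hε : ε ≤ 1) (x : E) (h : ‖P (Q x)‖ ≤ ε * ‖Q x‖) :
    -ε * (‖x - P x‖ ^ 2 + ‖x - Q x‖ ^ 2) ≤ 2 * (⟪x - P x, x - Q x⟫_ℂ).re := by
  have hPx := hP.inner_self x
  have hQx := hQ.inner_self x
  have hc : (⟪P x, Q x⟫_ℂ).re ≤ ε * (‖P x‖ * ‖Q x‖) := by
    have : ⟪P x, Q x⟫_ℂ = ⟪P x, P (Q x)⟫_ℂ := by rw [← hP.symm, hP.idem]
    rw [this]
    calc (⟪P x, P (Q x)⟫_ℂ).re ≤ ‖P x‖ * ‖P (Q x)‖ := re_inner_le_norm (𝕜 := ℂ) _ _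
      _ ≤ ‖P x‖ * (ε * ‖Q x‖) := by gcongr
      _ = _ := by ring
  have hN : ‖P x + Q x‖ ^ 2 = ‖P x‖ ^ 2 + 2 * (⟪P x, Q x⟫_ℂ).re + ‖Q x‖ ^ 2 :=
    norm_add_sq (𝕜 := ℂ) _ _
  have hA : ‖P x‖ ^ 2 + ‖Q x‖ ^ 2 ≤ ‖x‖ * ‖P x + Q x‖ := by
    have := re_inner_le_norm (𝕜 := ℂ) x (P x + Q x)
    rw [inner_add_right] at this
    simp only [RCLike.re_to_complex, Complex.add_re] at this
    linarith
  have key := real_aux (X := ‖x‖ ^ 2) (A := ‖P x‖ ^ 2 + ‖Q x‖ ^ 2) (N := ‖P x + Q x‖ ^ 2)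
    (ε := ε) (by positivity) (by positivity) (by positivity) hε0 hε
    (by rw [← mul_pow]; gcongr)
    (by rw [hN]; nlinarith [sq_nonneg (‖P x‖ - ‖Q x‖)])
  rw [hP.norm_compl_sq, hQ.norm_compl_sq, inner_sub_left, inner_sub_right, inner_sub_right]
  have h1 : (⟪x, x⟫_ℂ).re = ‖x‖ ^ 2 := inner_self_eq_norm_sq (𝕜 := ℂ) _
  have h2 : (⟪P x, x⟫_ℂ).re = ‖P x‖ ^ 2 := by rw [hP.symm]; exact hPx
  simp only [Complex.sub_re]
  rw [hN] at key
  linarith

lemma pair_comm {P Q : E →L[ℂ] E} (hP : SymIdem P) (hQ : SymIdem Q) (x : E)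
    (h : P (Q x) = Q (P x)) : 0 ≤ (⟪x - P x, x - Q x⟫_ℂ).re := by
  set y := (x - Q x) - P (x - Q x) with hy
  have hPy : P y = 0 := by simp [hy, hP.idem]
  have hQy : Q y = 0 := by
    simp only [hy, map_sub, hQ.idem, h, sub_self]
  have h1 : ⟪x - P x, x - Q x⟫_ℂ = ⟪x, y⟫_ℂ := by
    rw [inner_sub_left, hP.symm, hy, inner_sub_right (x := x) (y := x - Q x)]
  have h2 : ⟪y, y⟫_ℂ = ⟪x, y⟫_ℂ := by
    conv_lhs => enter [2]; rw [hy]
    rw [inner_sub_left, inner_sub_left, hP.symm, hQ.symm, hPy, hQy]; simp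
  rw [h1, ← h2]
  exact inner_self_nonneg (𝕜 := ℂ)

lemma pair_ineq {P Q Z : E →L[ℂ] E} (hP : SymIdem P) (hQ : SymIdem Q) (hZ : SymIdem Z)
    (hZP : Commute Z P) (hZQ : Commute Z Q) (h0 : Z * P * Q = Z * Q * P) {r ε : ℝ}
    (h1 : (1 - Z) * (Q * P * Q) = (r : ℂ) • ((1 - Z) * Q)) (hr : r ≤ ε ^ 2) (hε0 : 0 ≤ ε)
    (hε : ε ≤ 1) (x : E) :
    -ε * (‖x - P x‖ ^ 2 + ‖x - Q x‖ ^ 2) ≤ 2 * (⟪x - P x, x - Q x⟫_ℂ).re := by
  have zp : ∀ y, Z (P y) = P (Z y) := fun y => congrArg (fun T : E →L[ℂ] E => T y) hZP.eq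
  have zq : ∀ y, Z (Q y) = Q (Z y) := fun y => congrArg (fun T : E →L[ℂ] E => T y) hZQ.eq
  set x₀ := Z x with hx₀
  set x₁ := x - Z x with hx₁
  have z0 : Z x₀ = x₀ := hZ.idem x
  have z1 : Z x₁ = 0 := by simp [hx₁, hZ.idem]
  have hP0 : Z (x₀ - P x₀) = x₀ - P x₀ := by rw [map_sub, zp, z0]
  have hQ0 : Z (x₀ - Q x₀) = x₀ - Q x₀ := by rw [map_sub, zq, z0]
  have hP1 : Z (x₁ - P x₁) = 0 := by rw [map_sub, zp, z1]; simp
  have hQ1 : Z (x₁ - Q x₁) = 0 := by rw [map_sub, zq, z1]; simp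
  have eP : x - P x = (x₀ - P x₀) + (x₁ - P x₁) := by simp only [hx₀, hx₁, map_sub]; abel
  have eQ : x - Q x = (x₀ - Q x₀) + (x₁ - Q x₁) := by simp only [hx₀, hx₁, map_sub]; abel
  have a0 : 0 ≤ (⟪x₀ - P x₀, x₀ - Q x₀⟫_ℂ).re := by
    refine pair_comm hP hQ _ ?_
    have := congrArg (fun T : E →L[ℂ] E => T x) h0
    simp only [mul_apply_eq_comp] at this
    rwa [zp, zq, zq, zp] at this
  have a1 : -ε * (‖x₁ - P x₁‖ ^ 2 + ‖x₁ - Q x₁‖ ^ 2) ≤ 2 * (⟪x₁ - P x₁, x₁ - Q x₁⟫_ℂ).re := by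
    refine pair_generic hP hQ hε0 hε _ ?_
    set β := Q x₁ with hβ
    have zβ : Z β = 0 := by rw [hβ, zq, z1, map_zero]
    have qβ : Q β = β := hQ.idem _
    have := congrArg (fun T : E →L[ℂ] E => ⟪β, T β⟫_ℂ) h1
    simp only [mul_apply_eq_comp, sub_apply,
      one_apply_eq_self, smul_apply, qβ, zβ, sub_zero,
      inner_sub_right, inner_smul_right] at this
    rw [← hZ.symm, zβ, inner_zero_left, sub_zero, ← hQ.symm, qβ] at this
    have h3 := congrArg Complex.re this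
    rw [hP.inner_self, Complex.re_ofReal_mul] at h3
    have h4 : (⟪β, β⟫_ℂ).re = ‖β‖ ^ 2 := inner_self_eq_norm_sq (𝕜 := ℂ) _
    rw [h4] at h3
    have : ‖P β‖ ^ 2 ≤ (ε * ‖β‖) ^ 2 := by rw [h3, mul_pow]; gcongr
    exact (pow_le_pow_iff_left₀ (norm_nonneg _) (by positivity) (by norm_num)).1 this
  have o1 := hZ.inner_eq_zero hP0 hP1
  have o2 := hZ.inner_eq_zero hQ0 hQ1
  have o3 := hZ.inner_eq_zero hP0 hQ1
  have o4 := hZ.inner_eq_zero hQ0 hP1
  rw [inner_eq_zero_symm] at o4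
  rw [eP, eQ, norm_add_sq (𝕜 := ℂ), norm_add_sq (𝕜 := ℂ), o1, o2, inner_add_left,
    inner_add_right, inner_add_right, o3, o4]
  simp only [map_zero, mul_zero, add_zero, zero_add, Complex.add_re]
  nlinarith [mul_nonneg hε0 (sq_nonneg ‖x₀ - P x₀‖), mul_nonneg hε0 (sq_nonneg ‖x₀ - Q x₀‖)]

/-- the dichotomy: a positive lower bound improves to `1/8` -/
lemma dichotomy (P : Fin 4 → E →L[ℂ] E) (hP : ∀ i, SymIdem (P i))
    (hpair : ∀ i j, i ≠ j → ∀ x, -(1 / 6 : ℝ) * (‖x - P i x‖ ^ 2 + ‖x - P j x‖ ^ 2) ≤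
      2 * (⟪x - P i x, x - P j x⟫_ℂ).re)
    (M : Submodule ℂ E) (hM : ∀ i, ∀ x ∈ M, P i x ∈ M) {δ : ℝ} (hδ : 0 < δ)
    (h : ∀ x ∈ M, δ * ‖x‖ ^ 2 ≤ ∑ i, ‖x - P i x‖ ^ 2) :
    ∀ x ∈ M, (1 / 8 : ℝ) * ‖x‖ ^ 2 ≤ ∑ i, ‖x - P i x‖ ^ 2 := by
  have gap : ∀ x, (1 / 2 : ℝ) * ∑ i, ‖x - P i x‖ ^ 2 ≤ ‖∑ i, (x - P i x)‖ ^ 2 := by
    intro x
    have h01 := hpair 0 1 (by decide) x
    have h02 := hpair 0 2 (by decide) x
    have h03 := hpair 0 3 (by decide) x
    have h12 := hpair 1 2 (by decide) x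
    have h13 := hpair 1 3 (by decide) x
    have h23 := hpair 2 3 (by decide) x
    rw [Fin.sum_univ_four, Fin.sum_univ_four, norm_add_sq (𝕜 := ℂ), norm_add_sq (𝕜 := ℂ),
      norm_add_sq (𝕜 := ℂ)]
    simp only [inner_add_left, RCLike.re_to_complex, Complex.add_re]
    linarith
  have improve : ∀ μ : ℝ, 0 ≤ μ → μ ≤ 1 / 8 →
      (∀ x ∈ M, μ * ‖x‖ ^ 2 ≤ ∑ i, ‖x - P i x‖ ^ 2) →
      ∀ x ∈ M, (16 / 15 * μ) * ‖x‖ ^ 2 ≤ ∑ i, ‖x - P i x‖ ^ 2 := by
    intro μ hμ0 hμ hv x hx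
    set d := ∑ i, (x - P i x) with hd
    have hdM : d ∈ M := M.sum_mem fun i _ => M.sub_mem hx (hM i x hx)
    set F := ∑ i, ‖x - P i x‖ ^ 2 with hF
    have hF0 : 0 ≤ F := by positivity
    have hxd : (⟪x, d⟫_ℂ).re = F := by
      rw [hd, inner_sum, Complex.re_sum]
      refine Finset.sum_congr rfl fun i _ => ?_
      rw [(hP i).norm_compl_sq, inner_sub_right, Complex.sub_re, (hP i).inner_self]
      congr 1
      exact inner_self_eq_norm_sq (𝕜 := ℂ) _
    set ζ := x - (1 / 4 : ℂ) • d with hζ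
    have hζM : ζ ∈ M := M.sub_mem hx (M.smul_mem _ hdM)
    have hn : ‖x‖ ^ 2 - F / 2 ≤ ‖ζ‖ ^ 2 := by
      rw [hζ, norm_sub_sq (𝕜 := ℂ), inner_smul_right]
      have : (RCLike.re ((1 / 4 : ℂ) * ⟪x, d⟫_ℂ) : ℝ) = F / 4 := by
        simp [← hxd]; ring
      rw [this]
      nlinarith [sq_nonneg ‖(1 / 4 : ℂ) • d‖]
    have hFζ : ∑ i, ‖ζ - P i ζ‖ ^ 2 ≤ F - ‖d‖ ^ 2 / 4 := by
      have e : ∀ i, ‖ζ - P i ζ‖ ^ 2 ≤
          ‖x - P i x‖ ^ 2 - (⟪x - P i x, d⟫_ℂ).re / 2 + ‖d‖ ^ 2 / 16 := by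
        intro i
        have e1 : ζ - P i ζ = (x - P i x) - (1 / 4 : ℂ) • (d - P i d) := by
          simp only [hζ, map_sub, map_smul, smul_sub]; abel
        have e2 : ⟪x - P i x, d - P i d⟫_ℂ = ⟪x - P i x, d⟫_ℂ := by
          rw [inner_sub_right, ← (hP i).symm, map_sub, (hP i).idem, sub_self, inner_zero_left,
            sub_zero]
        rw [e1, norm_sub_sq (𝕜 := ℂ), inner_smul_right, e2, norm_smul, mul_pow,
          (hP i).norm_compl_sq d]
        have : (RCLike.re ((1 / 4 : ℂ) * ⟪x - P i x, d⟫_ℂ) : ℝ) = (⟪x - P i x, d⟫_ℂ).re / 4 := by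
          simp; ring
        rw [this]
        have h4 : ‖(1 / 4 : ℂ)‖ = 1 / 4 := by simp
        rw [h4]
        nlinarith [sq_nonneg ‖P i d‖]
      have e3 : ∑ i, (⟪x - P i x, d⟫_ℂ).re = ‖d‖ ^ 2 := by
        rw [← Complex.re_sum, ← sum_inner, ← hd]
        exact inner_self_eq_norm_sq (𝕜 := ℂ) _
      calc ∑ i, ‖ζ - P i ζ‖ ^ 2
          ≤ ∑ i, (‖x - P i x‖ ^ 2 - (⟪x - P i x, d⟫_ℂ).re / 2 + ‖d‖ ^ 2 / 16) :=
            Finset.sum_le_sum fun i _ => e i
        _ = F - ‖d‖ ^ 2 / 2 + 4 * (‖d‖ ^ 2 / 16) := by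
            rw [Finset.sum_add_distrib, Finset.sum_sub_distrib, ← Finset.sum_div, e3]
            simp [hF]
        _ = _ := by ring
    have hg := gap x
    rw [← hd, ← hF] at hg
    have := hv ζ hζM
    have h5 : μ * (‖x‖ ^ 2 - F / 2) ≤ μ * ‖ζ‖ ^ 2 := by gcongr
    nlinarith [mul_le_mul_of_nonneg_right hμ hF0]
  have iter : ∀ n : ℕ, ∀ x ∈ M,
      min (1 / 8) ((16 / 15 : ℝ) ^ n * δ) * ‖x‖ ^ 2 ≤ ∑ i, ‖x - P i x‖ ^ 2 := by
    intro n
    induction n with
    | zero =>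
      intro x hx
      refine le_trans ?_ (h x hx)
      gcongr
      simp
    | succ n ih =>
      intro x hx
      refine le_trans ?_ (improve _ (by positivity) (min_le_left _ _) ih x hx)
      gcongr
      rw [mul_min_of_nonneg _ _ (by norm_num : (0 : ℝ) ≤ 16 / 15)]
      exact min_le_min (by norm_num) (by rw [pow_succ]; linarith)
  obtain ⟨n, hn⟩ := pow_unbounded_of_one_lt (1 / 8 / δ) (by norm_num : (1 : ℝ) < 16 / 15)
  intro x hx
  have := iter n x hx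
  rwa [min_eq_left (by rw [div_lt_iff₀ hδ] at hn; exact hn.le)] at this

end Proj

section Rep

variable {G : Type*} [Group G] {E : Type*} [NormedAddCommGroup E] [InnerProductSpace ℂ E]

/-- unitary representation on a pre-Hilbert space -/
def IsURep (V : G →* (E →L[ℂ] E)) : Prop := ∀ g x y, ⟪V g x, V g y⟫_ℂ = ⟪x, y⟫_ℂ

lemma IsURep.norm_map {V : G →* (E →L[ℂ] E)} (hV : IsURep V) (g : G) (x : E) :
    ‖V g x‖ = ‖x‖ := by
  rw [@norm_eq_sqrt_re_inner ℂ, @norm_eq_sqrt_re_inner ℂ, hV]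

lemma rep_mul_apply (V : G →* (E →L[ℂ] E)) (g h : G) (x : E) : V (g * h) x = V g (V h x) := by
  rw [map_mul]; rfl

/-- average over the powers of `g` -/
noncomputable def avg (p : ℕ) (V : G →* (E →L[ℂ] E)) (g : G) : E →L[ℂ] E :=
  (p : ℂ)⁻¹ • ∑ k ∈ range p, V (g ^ k)

variable {p : ℕ} {V : G →* (E →L[ℂ] E)}

lemma sum_pow_shift {g : G} (hg : g ^ p = 1) :
    ∑ k ∈ range p, V (g ^ (k + 1)) = ∑ k ∈ range p, V (g ^ k) := by
  have h1 := Finset.sum_range_succ (fun k => V (g ^ k)) p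
  have h2 := Finset.sum_range_succ' (fun k => V (g ^ k)) p
  rw [h1, hg, pow_zero] at h2
  exact (add_right_cancel h2).symm

lemma rep_mul_avg {g : G} (hg : g ^ p = 1) : V g * avg p V g = avg p V g := by
  rw [avg, mul_smul_comm, Finset.mul_sum]
  simp only [← map_mul, ← pow_succ']
  rw [sum_pow_shift hg]

lemma avg_mul_rep {g : G} (hg : g ^ p = 1) : avg p V g * V g = avg p V g := by
  rw [avg, smul_mul_assoc, Finset.sum_mul]
  simp only [← map_mul, ← pow_succ]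
  rw [sum_pow_shift hg]

lemma pow_mul_of_fix {g : G} {X : E →L[ℂ] E} (h : V g * X = X) (k : ℕ) : V (g ^ k) * X = X := by
  induction k with
  | zero => simp
  | succ k ih => rw [pow_succ, map_mul, mul_assoc, h, ih]

lemma avg_mul_of_fix (hp : p ≠ 0) {g : G} {X : E →L[ℂ] E} (h : V g * X = X) :
    avg p V g * X = X := by
  rw [avg, smul_mul_assoc, Finset.sum_mul]
  simp only [pow_mul_of_fix h, Finset.sum_const, card_range]
  rw [← Nat.cast_smul_eq_nsmul ℂ, smul_smul, inv_mul_cancel₀ (by exact_mod_cast hp), one_smul]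

lemma commute_avg {g : G} {X : E →L[ℂ] E} (h : Commute X (V g)) : Commute X (avg p V g) := by
  refine Commute.smul_right (Commute.sum_right _ _ _ fun k _ => ?_) _
  rw [map_pow]; exact h.pow_right k

lemma avg_apply (g : G) (x : E) :
    avg p V g x = (p : ℂ)⁻¹ • ∑ k ∈ range p, V (g ^ k) x := by
  simp [avg]

lemma avg_symIdem (hV : IsURep V) (hp : p ≠ 0) {g : G} (hg : g ^ p = 1) :
    SymIdem (avg p V g) := by
  have hfix : ∀ k x, V (g ^ k) (avg p V g x) = avg p V g x := fun k x =>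
    congrArg (fun T : E →L[ℂ] E => T x) (pow_mul_of_fix (rep_mul_avg (V := V) hg) k)
  have h1 : ∀ x y, ⟪avg p V g x, avg p V g y⟫_ℂ = ⟪avg p V g x, y⟫_ℂ := by
    intro x y
    conv_lhs => rw [avg_apply g y]
    rw [inner_smul_right, inner_sum]
    have : ∀ k ∈ range p, ⟪avg p V g x, V (g ^ k) y⟫_ℂ = ⟪avg p V g x, y⟫_ℂ := by
      intro k _
      conv_lhs => rw [← hfix k x]
      exact hV _ _ _
    rw [Finset.sum_congr rfl this]
    simp only [Finset.sum_const, card_range, nsmul_eq_mul]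
    rw [← mul_assoc, inv_mul_cancel₀ (by exact_mod_cast hp), one_mul]
  refine ⟨fun x y => ?_, fun x => ?_⟩
  · rw [← h1, ← inner_conj_symm, h1, inner_conj_symm]
  · exact congrArg (fun T : E →L[ℂ] E => T x) (avg_mul_of_fix hp (rep_mul_avg (V := V) hg))

lemma heis_pow {a b c : G} (hca : Commute c a) (h : a * b = c * b * a) (k : ℕ) :
    a ^ k * b = c ^ k * b * a ^ k := by
  induction k with
  | zero => simp
  | succ k ih =>
    calc a ^ (k + 1) * b = a * (a ^ k * b) := by rw [pow_succ', mul_assoc]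
      _ = (a * c ^ k) * b * a ^ k := by rw [ih]; simp only [mul_assoc]
      _ = c ^ k * (a * b) * a ^ k := by rw [← (hca.pow_left k).eq]; simp only [mul_assoc]
      _ = _ := by rw [h, pow_succ, pow_succ']; simp only [mul_assoc]

lemma heis_ineq (hV : IsURep V) (hp : p.Prime) (h36 : 36 ≤ p) {a b c : G} (ha : a ^ p = 1)
    (hb : b ^ p = 1) (hc : c ^ p = 1) (hca : Commute c a) (hcb : Commute c b)
    (h : a * b = c * b * a) (x : E) :
    -(1 / 6 : ℝ) * (‖x - avg p V a x‖ ^ 2 + ‖x - avg p V b x‖ ^ 2) ≤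
      2 * (⟪x - avg p V a x, x - avg p V b x⟫_ℂ).re := by
  have hp0 := hp.ne_zero
  have hZa : Commute (avg p V c) (V a) := (commute_avg (hca.map V).symm).symm
  have hZb : Commute (avg p V c) (V b) := (commute_avg (hcb.map V).symm).symm
  have hZ := avg_symIdem hV hp0 hc
  have hZZ : avg p V c * avg p V c = avg p V c := ContinuousLinearMap.ext hZ.idem
  have hQQ : avg p V b * avg p V b = avg p V b :=
    ContinuousLinearMap.ext (avg_symIdem hV hp0 hb).idem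
  refine pair_ineq (avg_symIdem hV hp0 ha) (avg_symIdem hV hp0 hb) hZ (commute_avg hZa)
    (commute_avg hZb) ?_ (r := (p : ℝ)⁻¹) ?_ ?_ (by norm_num) (by norm_num) x
  · have e1 : Commute (avg p V c * V a) (V b) := by
      change avg p V c * V a * V b = V b * (avg p V c * V a)
      rw [mul_assoc, ← map_mul, h, map_mul, map_mul, ← mul_assoc, ← mul_assoc, avg_mul_rep hc,
        hZb.eq, mul_assoc]
    have e2 : Commute (avg p V c * V a) (avg p V b) := commute_avg e1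
    have e3 : Commute (avg p V c * avg p V b) (V a) := by
      change avg p V c * avg p V b * V a = V a * (avg p V c * avg p V b)
      rw [← mul_assoc, ← hZa.eq, e2.eq, ← mul_assoc, (commute_avg hZb).eq]
    have e4 := (commute_avg (p := p) e3).eq
    rw [e4, ← mul_assoc, (commute_avg hZa).eq]
  · have key : ∀ k ∈ range p, k ≠ 0 →
        (1 - avg p V c) * (avg p V b * V (a ^ k) * avg p V b) = 0 := by
      intro k hk hk0
      set X := avg p V b * V (a ^ k) * avg p V b with hX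
      have e1 : V (c ^ k) * X = X := by
        have c1 : Commute (V (c ^ k)) (avg p V b) := commute_avg ((hcb.pow_left k).map V)
        calc V (c ^ k) * X = avg p V b * V (c ^ k) * V (a ^ k) * avg p V b := by
              rw [hX, ← c1.eq]; simp only [mul_assoc]
          _ = (avg p V b * V b) * V (c ^ k) * V (a ^ k) * avg p V b := by rw [avg_mul_rep hb]
          _ = avg p V b * V (c ^ k * b * a ^ k) * avg p V b := by
              rw [(hcb.pow_left k).eq, map_mul, map_mul]; simp only [mul_assoc]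
          _ = avg p V b * V (a ^ k) * (V b * avg p V b) := by
              rw [← heis_pow hca h, map_mul]; simp only [mul_assoc]
          _ = X := by rw [rep_mul_avg hb]
      have hcop : Nat.Coprime k p :=
        ((Nat.Prime.coprime_iff_not_dvd hp).2
          (Nat.not_dvd_of_pos_of_lt (Nat.pos_of_ne_zero hk0) (mem_range.1 hk))).symm
      obtain ⟨l, -, hl⟩ := Nat.exists_mul_mod_eq_one_of_coprime hcop hp.one_lt
      have e2 : (c ^ k) ^ l = c := by
        rw [← pow_mul, ← Nat.div_add_mod (k * l) p, hl, pow_add, pow_mul, hc]; simp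
      have e3 : V c * X = X := by rw [← e2]; exact pow_mul_of_fix e1 l
      rw [sub_mul, one_mul, avg_mul_of_fix hp0 e3, sub_self]
    have : avg p V b * avg p V a * avg p V b =
        (p : ℂ)⁻¹ • ∑ k ∈ range p, avg p V b * V (a ^ k) * avg p V b := by
      conv_lhs => enter [1, 2]; rw [avg]
      rw [mul_smul_comm, smul_mul_assoc, Finset.mul_sum, Finset.sum_mul]
    rw [this, mul_smul_comm, Finset.mul_sum,
      Finset.sum_eq_single_of_mem 0 (mem_range.2 hp.pos) key]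
    simp [hQQ]
  · have : (36 : ℝ) ≤ p := by exact_mod_cast h36
    rw [inv_le_comm₀ (by positivity) (by positivity)]
    linarith [show ((1 / 6 : ℝ) ^ 2)⁻¹ = 36 by norm_num]

/-- four generators of order `p`, pairwise Heisenberg -/
structure Gens (p : ℕ) (s : Fin 4 → G) : Prop where
  pow : ∀ i, s i ^ p = 1
  heis : ∀ i j, i ≠ j → ∃ c, c ^ p = 1 ∧ Commute c (s i) ∧ Commute c (s j) ∧
    s i * s j = c * s j * s i

/-- the energy of a vector -/
noncomputable def energy (v : Fin 4 → E →L[ℂ] E) (x : E) : ℝ := ∑ i, ‖v i x - x‖ ^ 2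

lemma energy_nonneg (v : Fin 4 → E →L[ℂ] E) (x : E) : 0 ≤ energy v x := by
  unfold energy; positivity

lemma le_energy (v : Fin 4 → E →L[ℂ] E) (x : E) (i : Fin 4) : ‖v i x - x‖ ^ 2 ≤ energy v x :=
  Finset.single_le_sum (f := fun i => ‖v i x - x‖ ^ 2) (fun _ _ => by positivity) (mem_univ i)

lemma le_sqrt_energy (v : Fin 4 → E →L[ℂ] E) (x : E) (i : Fin 4) :
    ‖v i x - x‖ ≤ √(energy v x) :=
  Real.le_sqrt_of_sq_le (le_energy v x i)

lemma energy_smul (v : Fin 4 → E →L[ℂ] E) (c : ℂ) (x : E) :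
    energy v (c • x) = ‖c‖ ^ 2 * energy v x := by
  simp only [energy, map_smul, ← smul_sub, norm_smul, mul_pow, Finset.mul_sum]

lemma norm_mul_sub_le (hV : IsURep V) (g h : G) (x : E) :
    ‖V (g * h) x - x‖ ≤ ‖V g x - x‖ + ‖V h x - x‖ := by
  have : V (g * h) x - x = (V g x - x) + V g (V h x - x) := by
    rw [rep_mul_apply, map_sub]; abel
  rw [this]
  exact (norm_add_le _ _).trans (by rw [hV.norm_map])

lemma norm_pow_sub_le (hV : IsURep V) (g : G) (k : ℕ) (x : E) :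
    ‖V (g ^ k) x - x‖ ≤ k * ‖V g x - x‖ := by
  induction k with
  | zero => simp
  | succ k ih =>
    rw [pow_succ]
    refine (norm_mul_sub_le hV _ _ _).trans ?_
    push_cast; linarith

lemma norm_sub_avg_le (hV : IsURep V) (hp : p ≠ 0) (g : G) (x : E) :
    ‖x - avg p V g x‖ ≤ p * ‖V g x - x‖ := by
  have hp' : (p : ℂ) ≠ 0 := by exact_mod_cast hp
  have hp'' : (0 : ℝ) < p := by exact_mod_cast Nat.pos_of_ne_zero hp
  have : x - avg p V g x = (p : ℂ)⁻¹ • ∑ k ∈ range p, (x - V (g ^ k) x) := by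
    rw [avg_apply, Finset.sum_sub_distrib, smul_sub, Finset.sum_const, card_range,
      ← Nat.cast_smul_eq_nsmul ℂ, smul_smul, inv_mul_cancel₀ hp', one_smul]
  rw [this, norm_smul, norm_inv, Complex.norm_natCast, inv_mul_le_iff₀ hp'']
  calc ‖∑ k ∈ range p, (x - V (g ^ k) x)‖ ≤ ∑ k ∈ range p, ‖x - V (g ^ k) x‖ := norm_sum_le _ _
    _ ≤ ∑ k ∈ range p, p * ‖V g x - x‖ := by
        refine Finset.sum_le_sum fun k hk => ?_
        rw [norm_sub_rev]
        refine (norm_pow_sub_le hV g k x).trans ?_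
        gcongr
        exact (mem_range.1 hk).le
    _ = _ := by simp

lemma norm_rep_sub_le (hV : IsURep V) {g : G} (hg : g ^ p = 1) (x : E) :
    ‖V g x - x‖ ≤ 2 * ‖x - avg p V g x‖ := by
  have h1 : V g (avg p V g x) = avg p V g x :=
    congrArg (fun T : E →L[ℂ] E => T x) (rep_mul_avg (V := V) hg)
  have : V g x - x = V g (x - avg p V g x) - (x - avg p V g x) := by
    rw [map_sub, h1]; abel
  rw [this]
  refine (norm_sub_le _ _).trans ?_
  rw [hV.norm_map]; linarith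

lemma pow_mem_of_mem {g : G} {M : Submodule ℂ E} (h : ∀ x ∈ M, V g x ∈ M) (k : ℕ) :
    ∀ x ∈ M, V (g ^ k) x ∈ M := by
  induction k with
  | zero => simp
  | succ k ih => intro x hx; rw [pow_succ, rep_mul_apply]; exact ih _ (h x hx)

/-- Property (T) in the form we use. -/
theorem propT (hV : IsURep V) (hp : p.Prime) (h36 : 36 ≤ p) {s : Fin 4 → G} (hs : Gens p s)
    (M : Submodule ℂ E) (hM : ∀ i, ∀ x ∈ M, V (s i) x ∈ M) {δ : ℝ} (hδ : 0 < δ)
    (h : ∀ x ∈ M, δ * ‖x‖ ^ 2 ≤ energy (fun i => V (s i)) x) :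
    ∀ x ∈ M, (1 / (8 * (p : ℝ) ^ 2)) * ‖x‖ ^ 2 ≤ energy (fun i => V (s i)) x := by
  have hp0 := hp.ne_zero
  have hp' : (0 : ℝ) < p := by exact_mod_cast hp.pos
  have key := dichotomy (fun i => avg p V (s i)) (fun i => avg_symIdem hV hp0 (hs.pow i))
    (fun i j hij x => by
      obtain ⟨c, hc, h1, h2, h3⟩ := hs.heis i j hij
      exact heis_ineq hV hp h36 (hs.pow i) (hs.pow j) hc h1 h2 h3 x)
    M (fun i x hx => by
      rw [avg_apply]
      exact M.smul_mem _ (M.sum_mem fun k _ => pow_mem_of_mem (hM i) k x hx))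
    (δ := δ / 4) (by positivity) (fun x hx => by
      have h1 := h x hx
      have h2 : energy (fun i => V (s i)) x ≤ 4 * ∑ i, ‖x - avg p V (s i) x‖ ^ 2 := by
        rw [energy, Finset.mul_sum]
        refine Finset.sum_le_sum fun i _ => ?_
        have := norm_rep_sub_le hV (hs.pow i) x
        calc ‖V (s i) x - x‖ ^ 2 ≤ (2 * ‖x - avg p V (s i) x‖) ^ 2 := by gcongr
          _ = _ := by ring
      linarith)
  intro x hx
  have h1 := key x hx
  have h2 : ∑ i, ‖x - avg p V (s i) x‖ ^ 2 ≤ (p : ℝ) ^ 2 * energy (fun i => V (s i)) x := by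
    rw [energy, Finset.mul_sum]
    refine Finset.sum_le_sum fun i _ => ?_
    have := norm_sub_avg_le hV hp0 (s i) x
    calc ‖x - avg p V (s i) x‖ ^ 2 ≤ (p * ‖V (s i) x - x‖) ^ 2 := by gcongr
      _ = _ := by ring
  rw [div_mul_eq_mul_div, div_le_iff₀ (by positivity)]
  nlinarith

lemma word_bound (hV : IsURep V) (s : Fin 4 → G) {g : G}
    (hg : g ∈ Submonoid.closure (Set.range s)) :
    ∃ C : ℝ, 0 ≤ C ∧ ∀ x, ‖V g x - x‖ ≤ C * √(energy (fun i => V (s i)) x) := by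
  induction hg using Submonoid.closure_induction with
  | mem g hg =>
    obtain ⟨i, rfl⟩ := hg
    exact ⟨1, zero_le_one, fun x => by simpa using le_sqrt_energy (fun i => V (s i)) x i⟩
  | one => exact ⟨0, le_rfl, fun x => by simp⟩
  | mul g h _ _ ihg ihh =>
    obtain ⟨C, hC0, hC⟩ := ihg
    obtain ⟨D, hD0, hD⟩ := ihh
    refine ⟨C + D, by positivity, fun x => (norm_mul_sub_le hV g h x).trans ?_⟩
    rw [add_mul]; exact add_le_add (hC x) (hD x)

lemma step_bound (hV : IsURep V) (s : Fin 4 → G) {ι : Type*} [Fintype ι] (t : ι → G)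
    (ht : ∀ i, ∃ σ : ι ≃ ι, ∀ c, ∃ g ∈ Submonoid.closure (Set.range s),
      s i * t c = t (σ c) * g) :
    ∃ C : ℝ, 0 < C ∧ ∀ x, energy (fun i => V (s i)) (∑ c, V (t c) x) ≤
      C * energy (fun i => V (s i)) x := by
  choose σ g hg hst using ht
  choose C hC0 hC using fun i c => word_bound hV s (hg i c)
  refine ⟨∑ i, (∑ c, C i c) ^ 2 + 1, by positivity, fun x => ?_⟩
  have hE := energy_nonneg (fun i => V (s i)) x
  have : energy (fun i => V (s i)) (∑ c, V (t c) x) ≤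
      (∑ i, (∑ c, C i c) ^ 2) * energy (fun i => V (s i)) x := by
    rw [energy, Finset.sum_mul]
    refine Finset.sum_le_sum fun i _ => ?_
    have e : V (s i) (∑ c, V (t c) x) - ∑ c, V (t c) x =
        ∑ c, V (t (σ i c)) (V (g i c) x - x) := by
      rw [map_sum, ← (σ i).sum_comp (fun c => V (t c) x), ← Finset.sum_sub_distrib]
      refine Finset.sum_congr rfl fun c _ => ?_
      rw [← rep_mul_apply, hst, rep_mul_apply, map_sub]
    have e2 : ‖V (s i) (∑ c, V (t c) x) - ∑ c, V (t c) x‖ ≤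
        (∑ c, C i c) * √(energy (fun i => V (s i)) x) := by
      rw [e, Finset.sum_mul]
      refine (norm_sum_le _ _).trans (Finset.sum_le_sum fun c _ => ?_)
      rw [hV.norm_map]; exact hC i c x
    calc _ ≤ ((∑ c, C i c) * √(energy (fun i => V (s i)) x)) ^ 2 := by gcongr
      _ = _ := by rw [mul_pow, Real.sq_sqrt hE]
  nlinarith

/-- If `ζ` is a word in the generators and the sum of the translates by powers of `ζ` vanishes on
an invariant subspace, the energy is bounded below there. -/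
theorem gap_of_sum_zero (hV : IsURep V) (hp : p.Prime) (h36 : 36 ≤ p) {s : Fin 4 → G}
    (hs : Gens p s) (M : Submodule ℂ E) (hM : ∀ i, ∀ x ∈ M, V (s i) x ∈ M) {ζ : G}
    (hζ : ζ ∈ Submonoid.closure (Set.range s))
    (h0 : ∀ x ∈ M, ∑ k ∈ range p, V (ζ ^ k) x = 0) :
    ∀ x ∈ M, (1 / (8 * (p : ℝ) ^ 2)) * ‖x‖ ^ 2 ≤ energy (fun i => V (s i)) x := by
  obtain ⟨C, hC0, hC⟩ := word_bound hV s hζ
  have hp' : (0 : ℝ) < p := by exact_mod_cast hp.pos
  refine propT hV hp h36 hs M hM (δ := 1 / ((p * C) ^ 2 + 1)) (by positivity) fun x hx => ?_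
  have h1 := norm_sub_avg_le hV hp.ne_zero ζ x
  rw [avg_apply, h0 x hx, smul_zero, sub_zero] at h1
  have h2 : ‖x‖ ≤ (p * C) * √(energy (fun i => V (s i)) x) := by
    refine h1.trans ?_
    rw [mul_assoc]; gcongr; exact hC x
  have hE := energy_nonneg (fun i => V (s i)) x
  have h3 : ‖x‖ ^ 2 ≤ (p * C) ^ 2 * energy (fun i => V (s i)) x := by
    calc _ ≤ ((p * C) * √(energy (fun i => V (s i)) x)) ^ 2 := by gcongr
      _ = _ := by rw [mul_pow, Real.sq_sqrt hE]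
  rw [div_mul_eq_mul_div, div_le_iff₀ (by positivity)]
  nlinarith

end Rep

end Vale.Agent.P083
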