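import Vale.Agent.P083.Tens

/-!
A finite-dimensional space cannot carry almost invariant vectors at all levels.
-/

namespace Vale.Agent.P083

open scoped InnerProductSpace TensorProduct ComplexConjugate
open Finset TensorProduct

lemma norm_sum_sq_of_orth {E ι : Type*} [NormedAddCommGroup E] [InnerProductSpace ℂ E]
    (s : Finset ι) (x : ι → E) (h : ∀ i ∈ s, ∀ j ∈ s, i ≠ j → ⟪x i, x j⟫_ℂ = 0) :
    ‖∑ i ∈ s, x i‖ ^ 2 = ∑ i ∈ s, ‖x i‖ ^ 2 := by
  rw [← inner_self_eq_norm_sq (𝕜 := ℂ), sum_inner, map_sum]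
  refine Finset.sum_congr rfl fun i hi => ?_
  rw [inner_sum, Finset.sum_eq_single_of_mem i hi fun j hj hji => h i hi j hj hji.symm,
    inner_self_eq_norm_sq]

variable {H L : Type*} [NormedAddCommGroup H] [InnerProductSpace ℂ H] [CompleteSpace H]
  [NormedAddCommGroup L] [InnerProductSpace ℂ L]

lemma key_ineq {ι : Type*} [Fintype ι] {e : ι → H} (he : Orthonormal ℂ e) (F : ι → L)
    (σ : ι → ℝ) (hσ : ∀ l, 0 ≤ σ l) (U : H →L[ℂ] H) (R : L →L[ℂ] L) :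
    2 * (⟪∑ l, e l ⊗ₜ[ℂ] ((σ l : ℂ) • F l), mapL U R (∑ l, e l ⊗ₜ[ℂ] ((σ l : ℂ) • F l))⟫_ℂ).re ≤
      ‖U‖ ^ 2 * ∑ l, σ l ^ 2 +
      (⟪∑ l, ((σ l : ℂ) • F l) ⊗ₜ[ℂ] toConj (F l),
        mapL R (conjOp R) (∑ l, ((σ l : ℂ) • F l) ⊗ₜ[ℂ] toConj (F l))⟫_ℂ).re := by
  have h1 : (⟪∑ l, e l ⊗ₜ[ℂ] ((σ l : ℂ) • F l),
      mapL U R (∑ l, e l ⊗ₜ[ℂ] ((σ l : ℂ) • F l))⟫_ℂ).re =
      ∑ l, ∑ l', σ l * σ l' * (⟪e l, U (e l')⟫_ℂ * ⟪F l, R (F l')⟫_ℂ).re := by
    rw [map_sum, sum_inner, Complex.re_sum]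
    refine Finset.sum_congr rfl fun l _ => ?_
    rw [inner_sum, Complex.re_sum]
    refine Finset.sum_congr rfl fun l' _ => ?_
    rw [mapL_tmul, inner_tmul, map_smul, inner_smul_left, inner_smul_right, Complex.conj_ofReal,
      ← Complex.re_ofReal_mul]
    congr 1
    push_cast; ring
  have h2 : (⟪∑ l, ((σ l : ℂ) • F l) ⊗ₜ[ℂ] toConj (F l),
        mapL R (conjOp R) (∑ l, ((σ l : ℂ) • F l) ⊗ₜ[ℂ] toConj (F l))⟫_ℂ).re =
      ∑ l, ∑ l', σ l * σ l' * ‖⟪F l, R (F l')⟫_ℂ‖ ^ 2 := by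
    rw [map_sum, sum_inner, Complex.re_sum]
    refine Finset.sum_congr rfl fun l _ => ?_
    rw [inner_sum, Complex.re_sum]
    refine Finset.sum_congr rfl fun l' _ => ?_
    rw [mapL_tmul, inner_tmul, map_smul, inner_smul_left, inner_smul_right, Complex.conj_ofReal,
      conjOp_toConj, inner_toConj, ← inner_conj_symm (R (F l')), mul_assoc, mul_assoc,
      Complex.mul_conj', ← Complex.ofReal_re (σ l * σ l' * ‖⟪F l, R (F l')⟫_ℂ‖ ^ 2)]
    congr 1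
    push_cast; ring
  have h3 : ∑ l, ∑ l', σ l * σ l' * ‖⟪e l, U (e l')⟫_ℂ‖ ^ 2 ≤ ‖U‖ ^ 2 * ∑ l, σ l ^ 2 := by
    have a1 : ∀ l', ∑ l, ‖⟪e l, U (e l')⟫_ℂ‖ ^ 2 ≤ ‖U‖ ^ 2 := fun l' => by
      refine (he.sum_inner_products_le _).trans ?_
      have := U.le_opNorm (e l')
      rw [he.1 l', mul_one] at this
      gcongr
    have a2 : ∀ l, ∑ l', ‖⟪e l, U (e l')⟫_ℂ‖ ^ 2 ≤ ‖U‖ ^ 2 := fun l => by
      have : ∀ l', ‖⟪e l, U (e l')⟫_ℂ‖ = ‖⟪e l', ContinuousLinearMap.adjoint U (e l)⟫_ℂ‖ :=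
        fun l' => by rw [ContinuousLinearMap.adjoint_inner_right, norm_inner_symm]
      simp only [this]
      refine (he.sum_inner_products_le _).trans ?_
      have := (ContinuousLinearMap.adjoint U).le_opNorm (e l)
      rw [he.1 l, mul_one, LinearIsometryEquiv.norm_map] at this
      gcongr
    calc ∑ l, ∑ l', σ l * σ l' * ‖⟪e l, U (e l')⟫_ℂ‖ ^ 2
        ≤ ∑ l, ∑ l', (σ l ^ 2 / 2 * ‖⟪e l, U (e l')⟫_ℂ‖ ^ 2 +
            σ l' ^ 2 / 2 * ‖⟪e l, U (e l')⟫_ℂ‖ ^ 2) := by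
          refine Finset.sum_le_sum fun l _ => Finset.sum_le_sum fun l' _ => ?_
          nlinarith [mul_nonneg (sq_nonneg (σ l - σ l')) (sq_nonneg ‖⟪e l, U (e l')⟫_ℂ‖)]
      _ = ∑ l, σ l ^ 2 / 2 * ∑ l', ‖⟪e l, U (e l')⟫_ℂ‖ ^ 2 +
            ∑ l', σ l' ^ 2 / 2 * ∑ l, ‖⟪e l, U (e l')⟫_ℂ‖ ^ 2 := by
          simp only [Finset.sum_add_distrib, Finset.mul_sum]
          congr 1
          exact Finset.sum_comm
      _ ≤ ∑ l, σ l ^ 2 / 2 * ‖U‖ ^ 2 + ∑ l', σ l' ^ 2 / 2 * ‖U‖ ^ 2 := by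
          gcongr with l _ l' _
          · exact a2 l
          · exact a1 l'
      _ = _ := by
          rw [← Finset.sum_add_distrib, Finset.mul_sum]
          exact Finset.sum_congr rfl fun l _ => by ring
  rw [h1, h2]
  refine le_trans ?_ (add_le_add_left h3 _)
  rw [← Finset.sum_add_distrib, Finset.mul_sum]
  refine Finset.sum_le_sum fun l _ => ?_
  rw [← Finset.sum_add_distrib, Finset.mul_sum]
  refine Finset.sum_le_sum fun l' _ => ?_
  have b1 : (⟪e l, U (e l')⟫_ℂ * ⟪F l, R (F l')⟫_ℂ).re ≤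
      ‖⟪e l, U (e l')⟫_ℂ‖ * ‖⟪F l, R (F l')⟫_ℂ‖ := by
    rw [← norm_mul]; exact Complex.re_le_norm _
  have b2 := mul_nonneg (hσ l) (hσ l')
  nlinarith [mul_nonneg b2 (sq_nonneg (‖⟪e l, U (e l')⟫_ℂ‖ - ‖⟪F l, R (F l')⟫_ℂ‖)),
    mul_le_mul_of_nonneg_left b1 b2]

variable {G : Type*} [Group G]

/-- the system of level subspaces -/
structure Levels (p : ℕ) (s : Fin 4 → G) (ρ : G →* (L →L[ℂ] L)) (W : ℕ → Submodule ℂ L)
    (ζ : ℕ → G) : Prop where
  inv : ∀ j i, ∀ w ∈ W j, ρ (s i) w ∈ W j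
  mem : ∀ j, ζ j ∈ Submonoid.closure (Set.range s)
  fix : ∀ i j, i < j → ∀ w ∈ W i, ρ (ζ j) w = w
  sum : ∀ j, ∀ w ∈ W j, ∑ k ∈ range p, ρ (ζ j ^ k) w = 0

variable {p : ℕ} {s : Fin 4 → G} {ρ : G →* (L →L[ℂ] L)} {W : ℕ → Submodule ℂ L} {ζ : ℕ → G}

lemma Levels.fix_pow (h : Levels p s ρ W ζ) {i j : ℕ} (hij : i < j) {w : L} (hw : w ∈ W i)
    (k : ℕ) : ρ (ζ j ^ k) w = w := by
  induction k with
  | zero => simp
  | succ k ih => rw [pow_succ, rep_mul_apply, h.fix i j hij w hw, ih]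

lemma Levels.orth (h : Levels p s ρ W ζ) (hρ : IsURep ρ) (hp : p ≠ 0) {i j : ℕ} (hij : i ≠ j)
    {w w' : L} (hw : w ∈ W i) (hw' : w' ∈ W j) : ⟪w, w'⟫_ℂ = 0 := by
  wlog hlt : i < j generalizing i j w w'
  · rw [inner_eq_zero_symm]
    exact this hij.symm hw' hw (lt_of_le_of_ne (not_lt.1 hlt) hij.symm)
  have h1 := congrArg (fun y => ⟪w, y⟫_ℂ) (h.sum j w' hw')
  simp only [inner_sum, inner_zero_right] at h1
  have h2 : ∀ k ∈ range p, ⟪w, ρ (ζ j ^ k) w'⟫_ℂ = ⟪w, w'⟫_ℂ := fun k _ => by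
    conv_lhs => rw [← h.fix_pow hlt hw k]
    exact hρ _ _ _
  rw [Finset.sum_congr rfl h2, Finset.sum_const, card_range, nsmul_eq_mul] at h1
  exact (mul_eq_zero.1 h1).resolve_left (by exact_mod_cast hp)

lemma Levels.block_inv (h : Levels p s ρ W ζ) (i j : ℕ) (a : Fin 4) :
    ∀ x ∈ tens (W i) (conjSub (W j)),
      tensRep ρ (conjRep ρ) (s a) x ∈ tens (W i) (conjSub (W j)) := by
  intro x hx
  rw [tensRep_apply]
  refine mapL_mem_tens (h.inv i a) (fun w hw => ?_) hx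
  obtain ⟨w, rfl⟩ := toConj.surjective w
  rw [conjRep_toConj, toConj_mem_conjSub]
  exact h.inv j a w hw

lemma Levels.block_gap (h : Levels p s ρ W ζ) (hρ : IsURep ρ) (hp : p.Prime) (h36 : 36 ≤ p)
    (hs : Gens p s) {i j : ℕ} (hij : i ≠ j) :
    ∀ x ∈ tens (W i) (conjSub (W j)), (1 / (8 * (p : ℝ) ^ 2)) * ‖x‖ ^ 2 ≤
      energy (fun a => tensRep ρ (conjRep ρ) (s a)) x := by
  have hinv := h.block_inv i j
  rcases lt_or_gt_of_ne hij with hlt | hlt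
  · refine gap_of_sum_zero (hρ.tensRep hρ.conjRep) hp h36 hs _ hinv (h.mem j) fun x hx => ?_
    refine tens_induction
      (P := fun x => ∑ k ∈ range p, tensRep ρ (conjRep ρ) (ζ j ^ k) x = 0) (by simp) ?_ ?_ hx
    · intro w hw w' hw'
      obtain ⟨w', rfl⟩ := toConj.surjective w'
      simp only [tensRep_apply, mapL_tmul, h.fix_pow hlt hw, conjRep_toConj]
      rw [← tmul_sum, ← map_sum, h.sum j w' hw', map_zero, tmul_zero]
    · intro x y hx hy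
      simp only [map_add, Finset.sum_add_distrib, hx, hy, add_zero]
  · refine gap_of_sum_zero (hρ.tensRep hρ.conjRep) hp h36 hs _ hinv (h.mem i) fun x hx => ?_
    refine tens_induction
      (P := fun x => ∑ k ∈ range p, tensRep ρ (conjRep ρ) (ζ i ^ k) x = 0) (by simp) ?_ ?_ hx
    · intro w hw w' hw'
      obtain ⟨w', rfl⟩ := toConj.surjective w'
      simp only [tensRep_apply, mapL_tmul, conjRep_toConj,
        h.fix_pow hlt (toConj_mem_conjSub.1 hw')]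
      rw [← sum_tmul, h.sum i w hw, zero_tmul]
    · intro x y hx hy
      simp only [map_add, Finset.sum_add_distrib, hx, hy, add_zero]

theorem Levels.no_finite_rank (h : Levels p s ρ W ζ) (hρ : IsURep ρ) (hp : p.Prime)
    (h36 : 36 ≤ p) (hs : Gens p s) (K : Submodule ℂ H) [FiniteDimensional ℂ K]
    (U : Fin 4 → H →L[ℂ] H) {γ : ℝ} (hγ : 48 * γ < 1 / (8 * (p : ℝ) ^ 2))
    (hU : ∀ a, ‖U a‖ ^ 2 ≤ 1 + γ) (η : ℕ → H ⊗[ℂ] L) (hη : ∀ j, η j ∈ tens K (W j))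
    (hn : ∀ j, ‖η j‖ = 1) (hE : ∀ j a, ‖mapL (U a) (ρ (s a)) (η j) - η j‖ ≤ γ) : False := by
  classical
  set κ : ℝ := 1 / (8 * (p : ℝ) ^ 2) with hκ
  have hp' : (0 : ℝ) < p := by exact_mod_cast hp.pos
  have hκ0 : 0 < κ := by positivity
  set k := Module.finrank ℂ K with hk
  set m := 2 * k + 1 with hm
  set T := ∑ j ∈ range m, η j with hT
  have horth : ∀ {i j : ℕ}, i ≠ j → ∀ {w w' : L}, w ∈ W i → w' ∈ W j → ⟪w, w'⟫_ℂ = 0 :=
    fun hij _ _ hw hw' => h.orth hρ hp.ne_zero hij hw hw'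
  have horthT : ∀ {i j : ℕ}, i ≠ j → ∀ {x y : H ⊗[ℂ] L}, x ∈ tens ⊤ (W i) → y ∈ tens ⊤ (W j) →
      ⟪x, y⟫_ℂ = 0 := fun hij _ _ hx hy =>
    inner_tens_eq_zero (fun _ _ _ _ _ hw _ hw' => by rw [horth hij hw hw', mul_zero]) hx hy
  have hη' : ∀ j, η j ∈ tens ⊤ (W j) := fun j => tens_mono le_top le_rfl (hη j)
  have hTK : T ∈ tens K (⊤ : Submodule ℂ L) :=
    Submodule.sum_mem _ fun j _ => tens_mono le_rfl le_top (hη j)
  obtain ⟨e, he⟩ := exists_schmidt K T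
  have heo : Orthonormal ℂ (fun l => (e l : H)) := e.orthonormal.comp_linearIsometry K.subtypeₗᵢ
  set φ : ℕ → Fin k → L := fun j l => contr (e l : H) (η j) with hφ
  set Φ : Fin k → L := fun l => contr (e l : H) T with hΦ
  have hφW : ∀ j l, φ j l ∈ W j := fun j l => contr_mem _ (hη j)
  have hΦφ : ∀ l, Φ l = ∑ j ∈ range m, φ j l := fun l => by simp only [hΦ, hT, map_sum, hφ]
  set σ : Fin k → ℝ := fun l => ‖Φ l‖ with hσ
  have hσ0 : ∀ l, 0 ≤ σ l := fun l => norm_nonneg _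
  have hσsq : ∀ l, σ l ^ 2 = ∑ j ∈ range m, ‖φ j l‖ ^ 2 := fun l => by
    simp only [hσ]
    rw [hΦφ, norm_sum_sq_of_orth _ _ fun i _ j _ hij => horth hij (hφW i l) (hφW j l)]
  set f : ℕ → Fin k → L := fun j l => ((σ l)⁻¹ : ℝ) • φ j l with hf
  set F : Fin k → L := fun l => ((σ l)⁻¹ : ℝ) • Φ l with hF
  have hfW : ∀ j l, f j l ∈ W j := fun j l => (W j).smul_of_tower_mem _ (hφW j l)
  have hFf : ∀ l, F l = ∑ j ∈ range m, f j l := fun l => by
    simp only [hF, hf, hΦφ, Finset.smul_sum]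
  have hσF : ∀ l, (σ l : ℂ) • F l = Φ l := fun l => by
    rcases (hσ0 l).eq_or_lt with h0 | h0
    · have : Φ l = 0 := norm_eq_zero.1 h0.symm
      simp [hF, this]
    · rw [Complex.coe_smul, hF, smul_smul, mul_inv_cancel₀ h0.ne', one_smul]
  have hFn : ∀ l, σ l * ‖F l‖ = σ l := fun l => by
    have := congrArg norm (hσF l)
    rwa [norm_smul, Complex.norm_real, Real.norm_of_nonneg (hσ0 l)] at this
  have hF1 : ∀ l, ‖F l‖ ≤ 1 := fun l => by
    simp only [hF, norm_smul, norm_inv, Real.norm_of_nonneg (hσ0 l)]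
    exact inv_mul_le_one_of_le₀ le_rfl (hσ0 l)
  have hσf : ∀ j ∈ range m, ∀ l, σ l * ‖f j l‖ = ‖φ j l‖ := fun j hj l => by
    rcases (hσ0 l).eq_or_lt with h0 | h0
    · have h1 : ‖φ j l‖ ^ 2 ≤ σ l ^ 2 := by
        rw [hσsq]
        exact Finset.single_le_sum (f := fun j => ‖φ j l‖ ^ 2) (fun _ _ => by positivity) hj
      rw [← h0] at h1 ⊢
      have : ‖φ j l‖ ^ 2 = 0 := le_antisymm (by simpa using h1) (by positivity)
      rw [pow_eq_zero_iff (by norm_num)] at this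
      rw [this, zero_mul]
    · simp only [hf, norm_smul, norm_inv, Real.norm_of_nonneg (hσ0 l)]
      rw [← mul_assoc, mul_inv_cancel₀ h0.ne', one_mul]
  have hTsum : ∑ l, (e l : H) ⊗ₜ[ℂ] ((σ l : ℂ) • F l) = T := by
    simp only [hσF]; exact sum_tmul_contr e hTK
  have hnormsum : ∀ ψ : Fin k → L, ‖∑ l, (e l : H) ⊗ₜ[ℂ] ψ l‖ ^ 2 = ∑ l, ‖ψ l‖ ^ 2 := fun ψ => by
    rw [norm_sum_sq_of_orth]
    · refine Finset.sum_congr rfl fun l _ => ?_
      rw [norm_tmul, heo.1 l, one_mul]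
    · intro l _ l' _ hl
      rw [inner_tmul, heo.inner_eq_zero hl, zero_mul]
  have hTn : ‖T‖ ^ 2 = m := by
    rw [hT, norm_sum_sq_of_orth _ _ fun i _ j _ hij => horthT hij (hη' i) (hη' j)]
    simp [hn]
  have hσm : ∑ l, σ l ^ 2 = m := by
    rw [← hTn, ← sum_tmul_contr e hTK, hnormsum]
  have hφ1 : ∀ j, ∑ l, ‖φ j l‖ ^ 2 = 1 := fun j => by
    rw [← hnormsum, sum_tmul_contr e (hη j), hn, one_pow]
  set V := tensRep ρ (conjRep ρ) with hV
  have hVu : IsURep V := hρ.tensRep hρ.conjRep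
  set Z := ∑ l, ((σ l : ℂ) • F l) ⊗ₜ[ℂ] toConj (F l) with hZ
  set z : ℕ × ℕ → L ⊗[ℂ] Conj L :=
    fun q => ∑ l, ((σ l : ℂ) • f q.1 l) ⊗ₜ[ℂ] toConj (f q.2 l) with hz
  have hzB : ∀ q, z q ∈ tens (W q.1) (conjSub (W q.2)) := fun q =>
    Submodule.sum_mem _ fun l _ =>
      tmul_mem_tens (Submodule.smul_mem _ _ (hfW _ _)) (toConj_mem_conjSub.2 (hfW _ _))
  have hZz : Z = ∑ q ∈ range m ×ˢ range m, z q := by
    simp only [hZ, hz, hFf, map_sum, sum_tmul, tmul_sum, Finset.smul_sum]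
    rw [Finset.sum_comm (s := range m ×ˢ range m)]
    refine Finset.sum_congr rfl fun l _ => ?_
    rw [Finset.sum_product_right]
  have horthB : ∀ {q q' : ℕ × ℕ}, q ≠ q' → ∀ {x y : L ⊗[ℂ] Conj L},
      x ∈ tens (W q.1) (conjSub (W q.2)) → y ∈ tens (W q'.1) (conjSub (W q'.2)) →
      ⟪x, y⟫_ℂ = 0 := fun {q q'} hq _ _ hx hy => by
    refine inner_tens_eq_zero (fun w hw w' hw' v hv v' hv' => ?_) hx hy
    by_cases h1 : q.1 = q'.1
    · have h2 : q'.2 ≠ q.2 := fun h2 => hq (Prod.ext h1 h2.symm)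
      obtain ⟨v, rfl⟩ := toConj.surjective v
      obtain ⟨v', rfl⟩ := toConj.surjective v'
      rw [inner_toConj, horth h2 (toConj_mem_conjSub.1 hv') (toConj_mem_conjSub.1 hv), mul_zero]
    · rw [horth h1 hw hw', zero_mul]
  have hZn : ‖Z‖ ^ 2 = m := by
    rw [hZ, norm_sum_sq_of_orth, ← hσm]
    · refine Finset.sum_congr rfl fun l _ => ?_
      rw [norm_tmul, norm_smul, norm_toConj, Complex.norm_real, Real.norm_of_nonneg (hσ0 l),
        hFn, hFn]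
    · intro l _ l' _ hl
      have : ⟪F l, F l'⟫_ℂ = 0 := by
        simp only [hF, ← Complex.coe_smul, inner_smul_left, inner_smul_right]
        rw [he l l' hl]; simp
      rw [inner_tmul, inner_smul_left, inner_smul_right, this]; simp
  -- diagonal blocks are small
  have hdiag : ∑ j ∈ range m, ‖z (j, j)‖ ^ 2 ≤ k := by
    have d1 : ∀ j ∈ range m, ‖z (j, j)‖ ^ 2 ≤ ∑ l, ‖f j l‖ ^ 2 := fun j hj => by
      have e1 : ‖z (j, j)‖ ≤ ∑ l, ‖φ j l‖ * ‖f j l‖ := by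
        refine (norm_sum_le _ _).trans (Finset.sum_le_sum fun l _ => ?_)
        rw [norm_tmul, norm_smul, norm_toConj, Complex.norm_real, Real.norm_of_nonneg (hσ0 l),
          hσf j hj]
      have e2 := Finset.sum_mul_sq_le_sq_mul_sq univ (fun l => ‖φ j l‖) (fun l => ‖f j l‖)
      rw [hφ1, one_mul] at e2
      exact le_trans (by gcongr) e2
    calc ∑ j ∈ range m, ‖z (j, j)‖ ^ 2 ≤ ∑ j ∈ range m, ∑ l, ‖f j l‖ ^ 2 := Finset.sum_le_sum d1
      _ = ∑ l, ‖F l‖ ^ 2 := by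
          rw [Finset.sum_comm]
          refine Finset.sum_congr rfl fun l _ => ?_
          rw [hFf, norm_sum_sq_of_orth _ _ fun i _ j _ hij => horth hij (hfW i l) (hfW j l)]
      _ ≤ ∑ _l : Fin k, (1 : ℝ) := Finset.sum_le_sum fun l _ => by
          have := hF1 l
          have := norm_nonneg (F l)
          nlinarith
      _ = k := by simp
  -- lower bound for the energy
  have hlow : κ * (m - k) ≤ energy (fun a => V (s a)) Z := by
    have e1 : energy (fun a => V (s a)) Z =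
        ∑ q ∈ range m ×ˢ range m, energy (fun a => V (s a)) (z q) := by
      simp only [energy]
      rw [Finset.sum_comm]
      refine Finset.sum_congr rfl fun a _ => ?_
      have hmem : ∀ q, V (s a) (z q) - z q ∈ tens (W q.1) (conjSub (W q.2)) := fun q =>
        Submodule.sub_mem _ (h.block_inv _ _ a _ (hzB q)) (hzB q)
      rw [hZz, map_sum, ← Finset.sum_sub_distrib,
        norm_sum_sq_of_orth _ _ fun q _ q' _ hq => horthB hq (hmem q) (hmem q')]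
    have e2 : (m : ℝ) = ∑ q ∈ range m ×ˢ range m, ‖z q‖ ^ 2 := by
      rw [← hZn, hZz, norm_sum_sq_of_orth _ _ fun q _ q' _ hq => horthB hq (hzB q) (hzB q')]
    have e3 : ∑ j ∈ range m, ‖z (j, j)‖ ^ 2 =
        ∑ q ∈ range m ×ˢ range m, if q.1 = q.2 then ‖z q‖ ^ 2 else 0 := by
      rw [Finset.sum_product]
      refine Finset.sum_congr rfl fun j hj => ?_
      simp [hj]
    calc κ * (m - k) ≤ κ * (m - ∑ j ∈ range m, ‖z (j, j)‖ ^ 2) := by gcongr
      _ = ∑ q ∈ range m ×ˢ range m, κ * (‖z q‖ ^ 2 - if q.1 = q.2 then ‖z q‖ ^ 2 else 0) := by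
          rw [e3, ← Finset.mul_sum, Finset.sum_sub_distrib, ← e2]
      _ ≤ _ := by
          rw [e1]
          refine Finset.sum_le_sum fun q _ => ?_
          split_ifs with hq
          · simpa using energy_nonneg _ _
          · rw [sub_zero]; exact h.block_gap hρ hp h36 hs hq _ (hzB q)
  -- upper bound for the energy
  have hup : energy (fun a => V (s a)) Z ≤ 24 * γ * m := by
    have u1 : ∀ a, ‖V (s a) Z - Z‖ ^ 2 ≤ 6 * γ * m := fun a => by
      have k1 := key_ineq heo F σ hσ0 (U a) (ρ (s a))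
      rw [hTsum, hσm, ← hZ] at k1
      have k2 : m * (1 - γ) ≤ (⟪T, mapL (U a) (ρ (s a)) T⟫_ℂ).re := by
        rw [hT, map_sum, sum_inner, Complex.re_sum]
        have : ∀ j ∈ range m, 1 - γ ≤
            (⟪η j, ∑ i ∈ range m, mapL (U a) (ρ (s a)) (η i)⟫_ℂ).re := fun j hj => by
          rw [inner_sum, Finset.sum_eq_single_of_mem j hj fun i _ hij =>
            horthT hij.symm (hη' j) 
              (mapL_mem_tens (K' := ⊤) (fun _ _ => Submodule.mem_top) (h.inv i a) (hη' i))]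
          have c1 := re_inner_le_norm (𝕜 := ℂ) (η j) (η j - mapL (U a) (ρ (s a)) (η j))
          rw [inner_sub_right, map_sub, inner_self_eq_norm_sq, norm_sub_rev, hn] at c1
          have := hE j a
          simp only [RCLike.re_to_complex] at c1
          linarith
        have := Finset.sum_le_sum this
        rwa [Finset.sum_const, card_range, nsmul_eq_mul] at this
      have k3 : (⟪V (s a) Z, Z⟫_ℂ).re = (⟪Z, mapL (ρ (s a)) (conjOp (ρ (s a))) Z⟫_ℂ).re := by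
        exact inner_re_symm (𝕜 := ℂ) (V (s a) Z) Z
      rw [norm_sub_sq (𝕜 := ℂ), hVu.norm_map, hZn, RCLike.re_to_complex, k3]
      have k4 : ‖U a‖ ^ 2 * m ≤ (1 + γ) * m := by gcongr; exact hU a
      linarith
    calc energy (fun a => V (s a)) Z ≤ ∑ _a : Fin 4, 6 * γ * m := Finset.sum_le_sum fun a _ => u1 a
      _ = _ := by simp; ring
  have hm' : (m : ℝ) = 2 * k + 1 := by rw [hm]; push_cast; ring
  have hk0 : (0 : ℝ) ≤ k := Nat.cast_nonneg _
  have : 24 * γ * m < κ / 2 * m := by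
    have : (0 : ℝ) < m := by rw [hm']; positivity
    gcongr; linarith
  have h5 : κ / 2 * m ≤ κ * (m - k) := by rw [hm']; nlinarith
  linarith

end Vale.Agent.P083
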