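import Vale.Agent.P083.Gap

/-!
Ultraproducts of pre-Hilbert spaces, asymptotic representations and the induction step.
-/

namespace Vale.Agent.P083

open scoped InnerProductSpace
open Filter Topology Finset

universe u

lemma tendsto_ulim (ω : Ultrafilter ℕ) {f : ℕ → ℂ} {C : ℝ} (hf : ∀ n, ‖f n‖ ≤ C) :
    Tendsto f ω (𝓝 (limUnder (ω : Filter ℕ) f)) := by
  have hc : IsCompact (Metric.closedBall (0 : ℂ) C) := isCompact_closedBall _ _
  obtain ⟨a, -, ha⟩ := hc.ultrafilter_le_nhds (ω.map f) (by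
    rw [Ultrafilter.coe_map, le_principal_iff, Filter.mem_map]
    exact Eventually.of_forall fun n => by simpa using hf n)
  exact tendsto_nhds_limUnder ⟨a, ha⟩

variable (H : ℕ → Type u) [∀ n, NormedAddCommGroup (H n)] [∀ n, InnerProductSpace ℂ (H n)]

/-- bounded sequences -/
def bddSeq : Submodule ℂ (∀ n, H n) where
  carrier := {x | ∃ C : ℝ, ∀ n, ‖x n‖ ≤ C}
  add_mem' := by
    rintro x y ⟨C, hC⟩ ⟨D, hD⟩
    exact ⟨C + D, fun n => (norm_add_le _ _).trans (add_le_add (hC n) (hD n))⟩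
  zero_mem' := ⟨0, by simp⟩
  smul_mem' := by
    rintro c x ⟨C, hC⟩
    refine ⟨‖c‖ * C, fun n => ?_⟩
    rw [Pi.smul_apply, norm_smul]
    exact mul_le_mul_of_nonneg_left (hC n) (norm_nonneg _)

/-- bounded sequences, to be given the limit seminorm -/
def PreU (_ω : Ultrafilter ℕ) : Type u := bddSeq H

variable (ω : Ultrafilter ℕ)

instance : AddCommGroup (PreU H ω) := inferInstanceAs (AddCommGroup (bddSeq H))
instance : Module ℂ (PreU H ω) := inferInstanceAs (Module ℂ (bddSeq H))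

variable {H ω}

/-- the underlying sequence -/
def PreU.val (x : PreU H ω) : ∀ n, H n := Subtype.val x

/-- build an element -/
def PreU.mk (x : ∀ n, H n) (C : ℝ) (h : ∀ n, ‖x n‖ ≤ C) : PreU H ω := Subtype.mk x ⟨C, h⟩

@[simp] lemma PreU.val_mk (x : ∀ n, H n) (C : ℝ) (h : ∀ n, ‖x n‖ ≤ C) :
    (PreU.mk x C h : PreU H ω).val = x := rfl
@[simp] lemma PreU.val_add (x y : PreU H ω) (n : ℕ) : (x + y).val n = x.val n + y.val n := rfl
@[simp] lemma PreU.val_sub (x y : PreU H ω) (n : ℕ) : (x - y).val n = x.val n - y.val n := rfl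
@[simp] lemma PreU.val_zero (n : ℕ) : (0 : PreU H ω).val n = 0 := rfl
@[simp] lemma PreU.val_smul (c : ℂ) (x : PreU H ω) (n : ℕ) : (c • x).val n = c • x.val n := rfl
lemma PreU.bdd (x : PreU H ω) : ∃ C : ℝ, ∀ n, ‖x.val n‖ ≤ C := Subtype.prop x
lemma PreU.ext {x y : PreU H ω} (h : ∀ n, x.val n = y.val n) : x = y :=
  Subtype.ext (funext h)

lemma PreU.tendsto_aux (x y : PreU H ω) :
    Tendsto (fun n => ⟪x.val n, y.val n⟫_ℂ) ω
      (𝓝 (limUnder (ω : Filter ℕ) fun n => ⟪x.val n, y.val n⟫_ℂ)) := by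
  obtain ⟨C, hC⟩ := x.bdd
  obtain ⟨D, hD⟩ := y.bdd
  refine tendsto_ulim ω (C := C * D) fun n => (norm_inner_le_norm _ _).trans ?_
  exact mul_le_mul (hC n) (hD n) (norm_nonneg _) ((norm_nonneg _).trans (hC n))

/-- the limit semi-inner product -/
noncomputable abbrev preCore : PreInnerProductSpace.Core ℂ (PreU H ω) where
  inner x y := limUnder (ω : Filter ℕ) fun n => ⟪x.val n, y.val n⟫_ℂ
  conj_inner_symm x y := by
    refine tendsto_nhds_unique ?_ (PreU.tendsto_aux x y)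
    have := (Complex.continuous_conj.tendsto _).comp (PreU.tendsto_aux y x)
    simpa [Function.comp_def] using this
  re_inner_nonneg x := by
    have := (Complex.continuous_re.tendsto _).comp (PreU.tendsto_aux x x)
    exact ge_of_tendsto' this fun n => inner_self_nonneg (𝕜 := ℂ)
  add_left x y z := by
    refine tendsto_nhds_unique (PreU.tendsto_aux (x + y) z) ?_
    simpa [inner_add_left] using (PreU.tendsto_aux x z).add (PreU.tendsto_aux y z)
  smul_left x y r := by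
    refine tendsto_nhds_unique (PreU.tendsto_aux (r • x) y) ?_
    simpa only [PreU.val_smul, inner_smul_left] using
      (PreU.tendsto_aux x y).const_mul (starRingEnd ℂ r)

noncomputable instance : SeminormedAddCommGroup (PreU H ω) :=
  InnerProductSpace.Core.toSeminormedAddCommGroup (c := preCore)

noncomputable instance : InnerProductSpace ℂ (PreU H ω) :=
  InnerProductSpace.ofCore preCore

lemma PreU.tendsto_inner (x y : PreU H ω) :
    Tendsto (fun n => ⟪x.val n, y.val n⟫_ℂ) ω (𝓝 ⟪x, y⟫_ℂ) := PreU.tendsto_aux x y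

lemma PreU.tendsto_norm (x : PreU H ω) : Tendsto (fun n => ‖x.val n‖) ω (𝓝 ‖x‖) := by
  simp only [@norm_eq_sqrt_re_inner ℂ]
  exact (Real.continuous_sqrt.tendsto _).comp
    ((Complex.continuous_re.tendsto _).comp (x.tendsto_inner x))

variable (H ω) in
/-- the ultraproduct pre-Hilbert space -/
abbrev UProd : Type u := SeparationQuotient (PreU H ω)

/-- class of a bounded sequence -/
noncomputable abbrev umk : PreU H ω →L[ℂ] UProd H ω := SeparationQuotient.mkCLM ℂ _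

lemma umk_surj (z : UProd H ω) : ∃ x, umk x = z := SeparationQuotient.surjective_mk z

lemma tendsto_inner_umk (x y : PreU H ω) :
    Tendsto (fun n => ⟪x.val n, y.val n⟫_ℂ) ω (𝓝 ⟪umk x, umk y⟫_ℂ) := x.tendsto_inner y

lemma tendsto_norm_umk (x : PreU H ω) : Tendsto (fun n => ‖x.val n‖) ω (𝓝 ‖umk x‖) :=
  x.tendsto_norm

lemma umk_eq_of_tendsto {x y : PreU H ω}
    (h : Tendsto (fun n => ‖x.val n - y.val n‖) ω (𝓝 0)) : umk x = umk y := by
  rw [← sub_eq_zero, ← map_sub, ← norm_eq_zero]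
  exact tendsto_nhds_unique (tendsto_norm_umk (x - y)) h

/-- a bounded sequence of operators acting on bounded sequences -/
noncomputable def preOp (T : ∀ n, H n →L[ℂ] H n) (hT : ∃ C : ℝ, ∀ n, ‖T n‖ ≤ C) :
    PreU H ω →L[ℂ] PreU H ω :=
  LinearMap.mkContinuous
    { toFun := fun x => PreU.mk (fun n => T n (x.val n)) (hT.choose * x.bdd.choose) fun n =>
        ((T n).le_opNorm _).trans (mul_le_mul (hT.choose_spec n) (x.bdd.choose_spec n)
          (norm_nonneg _) ((norm_nonneg _).trans (hT.choose_spec n)))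
      map_add' := fun x y => PreU.ext fun n => by simp
      map_smul' := fun c x => PreU.ext fun n => by simp }
    hT.choose fun x => by
      refine le_of_tendsto_of_tendsto' (PreU.tendsto_norm _)
        ((PreU.tendsto_norm x).const_mul hT.choose) fun n => ?_
      exact ((T n).le_opNorm _).trans
        (mul_le_mul_of_nonneg_right (hT.choose_spec n) (norm_nonneg _))

@[simp] lemma preOp_val (T : ∀ n, H n →L[ℂ] H n) (hT : ∃ C : ℝ, ∀ n, ‖T n‖ ≤ C) (x : PreU H ω)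
    (n : ℕ) : (preOp T hT x).val n = T n (x.val n) := rfl

/-- the induced operator on the ultraproduct -/
noncomputable def uOp (T : ∀ n, H n →L[ℂ] H n) (hT : ∃ C : ℝ, ∀ n, ‖T n‖ ≤ C) :
    UProd H ω →L[ℂ] UProd H ω :=
  SeparationQuotient.liftCLM (umk ∘L preOp T hT) fun _ _ h =>
    (h.map (umk ∘L preOp T hT).continuous).eq

lemma uOp_umk (T : ∀ n, H n →L[ℂ] H n) (hT : ∃ C : ℝ, ∀ n, ‖T n‖ ≤ C) (x : PreU H ω) :
    uOp T hT (umk x) = umk (preOp T hT x) := rfl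

variable {G : Type*} [Group G]

variable (ω) in
/-- asymptotic unitary representation along `ω` -/
structure AsympRep (v : ∀ n, G → H n →L[ℂ] H n) : Prop where
  bdd : ∀ g, ∃ C : ℝ, ∀ n, ‖v n g‖ ≤ C
  mul : ∀ g h, Tendsto (fun n => ‖v n (g * h) - v n g * v n h‖) ω (𝓝 0)
  one : Tendsto (fun n => ‖v n 1 - 1‖) ω (𝓝 0)
  inner : ∀ g, ∃ ε : ℕ → ℝ, Tendsto ε ω (𝓝 0) ∧
    ∀ n x y, ‖⟪v n g x, v n g y⟫_ℂ - ⟪x, y⟫_ℂ‖ ≤ ε n * (‖x‖ * ‖y‖)

lemma tendsto_apply_of_tendsto {T : ∀ n, H n →L[ℂ] H n}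
    (hT : Tendsto (fun n => ‖T n‖) ω (𝓝 0)) (x : PreU H ω) :
    Tendsto (fun n => ‖T n (x.val n)‖) ω (𝓝 0) := by
  refine squeeze_zero (fun _ => norm_nonneg _) (fun n => (T n).le_opNorm _) ?_
  simpa using hT.mul x.tendsto_norm

/-- the limit representation -/
noncomputable def AsympRep.lim {v : ∀ n, G → H n →L[ℂ] H n} (hv : AsympRep ω v) :
    G →* (UProd H ω →L[ℂ] UProd H ω) where
  toFun g := uOp (fun n => v n g) (hv.bdd g)
  map_one' := by
    ext z
    obtain ⟨x, rfl⟩ := umk_surj z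
    rw [uOp_umk]
    exact umk_eq_of_tendsto (tendsto_apply_of_tendsto hv.one x)
  map_mul' g h := by
    ext z
    obtain ⟨x, rfl⟩ := umk_surj z
    rw [mul_apply_eq_comp, uOp_umk, uOp_umk, uOp_umk]
    exact umk_eq_of_tendsto (tendsto_apply_of_tendsto (hv.mul g h) x)

lemma AsympRep.lim_umk {v : ∀ n, G → H n →L[ℂ] H n} (hv : AsympRep ω v) (g : G) (x : PreU H ω) :
    hv.lim g (umk x) = umk (preOp (fun n => v n g) (hv.bdd g) x) := rfl

lemma AsympRep.isURep {v : ∀ n, G → H n →L[ℂ] H n} (hv : AsympRep ω v) : IsURep hv.lim := by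
  intro g z w
  obtain ⟨x, rfl⟩ := umk_surj z
  obtain ⟨y, rfl⟩ := umk_surj w
  rw [hv.lim_umk, hv.lim_umk, ← sub_eq_zero, ← norm_eq_zero]
  obtain ⟨ε, hε, h⟩ := hv.inner g
  refine tendsto_nhds_unique ((tendsto_inner_umk _ _).sub (tendsto_inner_umk x y)).norm ?_
  refine squeeze_zero (fun _ => norm_nonneg _) (fun n => h n _ _) ?_
  simpa using hε.mul (x.tendsto_norm.mul y.tendsto_norm)

lemma AsympRep.tendsto_energy {v : ∀ n, G → H n →L[ℂ] H n} (hv : AsympRep ω v) (s : Fin 4 → G)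
    (x : PreU H ω) :
    Tendsto (fun n => energy (fun i => v n (s i)) (x.val n)) ω
      (𝓝 (energy (fun i => hv.lim (s i)) (umk x))) := by
  refine tendsto_finsetSum _ fun i _ => ?_
  rw [hv.lim_umk, ← map_sub]
  exact (tendsto_norm_umk _).pow 2

lemma le_energy_of_unit {E : Type*} [NormedAddCommGroup E] [InnerProductSpace ℂ E]
    (v : Fin 4 → E →L[ℂ] E) (M : Submodule ℂ E) {δ : ℝ}
    (h : ¬ ∃ x ∈ M, ‖x‖ = 1 ∧ energy v x ≤ δ) : ∀ x ∈ M, δ * ‖x‖ ^ 2 ≤ energy v x := by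
  intro x hx
  rcases eq_or_ne x 0 with rfl | hx0
  · simpa using energy_nonneg v 0
  have hn : 0 < ‖x‖ := norm_pos_iff.2 hx0
  by_contra hlt
  refine h ⟨((‖x‖⁻¹ : ℝ) : ℂ) • x, M.smul_mem _ hx, ?_, ?_⟩
  · rw [norm_smul, Complex.norm_real, norm_inv, norm_norm, inv_mul_cancel₀ hn.ne']
  · rw [energy_smul, Complex.norm_real, norm_inv, norm_norm, inv_pow,
      inv_mul_le_iff₀ (by positivity)]
    linarith

/-- The induction step, uniformly in the level. -/
theorem AsympRep.step {v : ∀ n, G → H n →L[ℂ] H n} (hv : AsympRep ω v) {p : ℕ} (hp : p.Prime)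
    (h36 : 36 ≤ p) {s : Fin 4 → G} (hs : Gens p s) {ι : Type*} [Fintype ι] [Nonempty ι]
    (t : ι → G)
    (ht : ∀ i, ∃ σ : ι ≃ ι, ∀ c, ∃ g ∈ Submonoid.closure (Set.range s),
      s i * t c = t (σ c) * g)
    (M : ∀ n, ℕ → Submodule ℂ (H n))
    (hM : ∀ n j i, ∀ x ∈ M n j, v n (s i) x ∈ M n j)
    (hMt : ∀ n j c, ∀ x ∈ M n j, v n (t c) x ∈ M n (j + 1))
    (horth : ∀ n j c c', c ≠ c' → ∀ x ∈ M n j, ⟪v n (t c) x, v n (t c') x⟫_ℂ = 0)
    {δ₀ : ℝ} (hδ₀ : 0 < δ₀) :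
    ∃ δ : ℝ, 0 < δ ∧ δ ≤ δ₀ ∧ ∀ᶠ n in (ω : Filter ℕ), ∀ j,
      (∃ x ∈ M n j, ‖x‖ = 1 ∧ energy (fun i => v n (s i)) x ≤ δ) →
      ∃ x ∈ M n (j + 1), ‖x‖ = 1 ∧ energy (fun i => v n (s i)) x ≤ δ := by
  classical
  obtain ⟨C, hC0, hC⟩ := step_bound hv.isURep s t ht
  have hp' : (0 : ℝ) < p := by exact_mod_cast hp.pos
  set κ : ℝ := 1 / (8 * (p : ℝ) ^ 2) with hκ
  have hκ0 : 0 < κ := by positivity
  refine ⟨min δ₀ (κ / (2 * C)), by positivity, min_le_left _ _, ?_⟩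
  set δ := min δ₀ (κ / (2 * C)) with hδ
  have hδ0 : 0 < δ := by positivity
  by_contra hcon
  rw [← Ultrafilter.eventually_not] at hcon
  have hch : ∀ n, ∃ (j : ℕ) (x : H n), x ∈ M n j ∧ ‖x‖ ≤ 1 ∧
      ((¬ ∀ j, (∃ x ∈ M n j, ‖x‖ = 1 ∧ energy (fun i => v n (s i)) x ≤ δ) →
        ∃ x ∈ M n (j + 1), ‖x‖ = 1 ∧ energy (fun i => v n (s i)) x ≤ δ) →
      ‖x‖ = 1 ∧ energy (fun i => v n (s i)) x ≤ δ ∧
        ∀ y ∈ M n (j + 1), δ * ‖y‖ ^ 2 ≤ energy (fun i => v n (s i)) y) := by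
    intro n
    by_cases h : ∀ j, (∃ x ∈ M n j, ‖x‖ = 1 ∧ energy (fun i => v n (s i)) x ≤ δ) →
        ∃ x ∈ M n (j + 1), ‖x‖ = 1 ∧ energy (fun i => v n (s i)) x ≤ δ
    · exact ⟨0, 0, Submodule.zero_mem _, by simp, fun h' => absurd h h'⟩
    · obtain ⟨j, hj⟩ := not_forall.1 h
      obtain ⟨⟨x, hx, hx1, hxE⟩, hn⟩ := Classical.not_imp.1 hj
      exact ⟨j, x, hx, hx1.le, fun _ => ⟨hx1, hxE, le_energy_of_unit _ _ hn⟩⟩
  choose j x hxM hx1 hx using hch
  have hev := hcon.mono fun n hn => hx n hn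
  set X : PreU H ω := PreU.mk x 1 hx1 with hX
  let N : Submodule ℂ (PreU H ω) :=
    { carrier := {y | ∀ n, y.val n ∈ M n (j n + 1)}
      add_mem' := fun ha hb n => Submodule.add_mem _ (ha n) (hb n)
      zero_mem' := fun n => Submodule.zero_mem _
      smul_mem' := fun c y hy n => Submodule.smul_mem _ c (hy n) }
  let N' : Submodule ℂ (UProd H ω) := N.map (umk : PreU H ω →L[ℂ] UProd H ω).toLinearMap
  have hT := propT hv.isURep hp h36 hs N' (by
      rintro i _ ⟨y, hy, rfl⟩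
      exact ⟨preOp (fun n => v n (s i)) (hv.bdd _) y, fun n => hM n _ i _ (hy n), rfl⟩)
    hδ0 (by
      rintro _ ⟨y, hy, rfl⟩
      refine le_of_tendsto_of_tendsto (((tendsto_norm_umk y).pow 2).const_mul δ)
        (hv.tendsto_energy s y) (hev.mono fun n hn => hn.2.2 _ (hy n)))
  have hmem : ∑ c, hv.lim (t c) (umk X) ∈ N' := by
    refine N'.sum_mem fun c _ => ?_
    exact ⟨preOp (fun n => v n (t c)) (hv.bdd _) X, fun n => hMt n _ c _ (hxM n), rfl⟩
  have h1 := hT _ hmem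
  have hXn : ‖umk X‖ = 1 := by
    refine tendsto_nhds_unique (tendsto_norm_umk X) ?_
    exact tendsto_const_nhds.congr' (hev.mono fun n hn => hn.1.symm)
  have hXE : energy (fun i => hv.lim (s i)) (umk X) ≤ δ :=
    le_of_tendsto (hv.tendsto_energy s X) (hev.mono fun n hn => hn.2.1)
  have hnorm : 1 ≤ ‖∑ c, hv.lim (t c) (umk X)‖ := by
    obtain ⟨c₀⟩ := ‹Nonempty ι›
    have e : ⟪hv.lim (t c₀) (umk X), ∑ c, hv.lim (t c) (umk X)⟫_ℂ = 1 := by
      rw [inner_sum, Finset.sum_eq_single c₀]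
      · rw [hv.isURep, inner_self_eq_norm_sq_to_K, hXn]; simp
      · intro c _ hc
        rw [hv.lim_umk, hv.lim_umk]
        refine tendsto_nhds_unique (tendsto_inner_umk _ _) ?_
        refine tendsto_const_nhds.congr fun n => ?_
        exact (horth n _ _ _ hc.symm _ (hxM n)).symm
      · simp
    have := norm_inner_le_norm (𝕜 := ℂ) (hv.lim (t c₀) (umk X)) (∑ c, hv.lim (t c) (umk X))
    rwa [e, hv.isURep.norm_map, hXn, norm_one, one_mul] at this
  have h2 := hC (umk X)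
  have h3 : C * δ ≤ κ / 2 := by
    calc C * δ ≤ C * (κ / (2 * C)) := by gcongr; exact min_le_right _ _
      _ = κ / 2 := by field_simp
  have h4 : κ * 1 ≤ κ * ‖∑ c, hv.lim (t c) (umk X)‖ ^ 2 := by
    gcongr; nlinarith
  have h5 : C * energy (fun i => hv.lim (s i)) (umk X) ≤ C * δ := by gcongr
  linarith

end Vale.Agent.P083
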