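import Vale.Agent.P083.Defs
import Vale.Agent.P083.Ultra
import Vale.Agent.P083.Cuntz
import Vale.Agent.P083.State

/-!
The abstract non-embedding theorem.
-/

namespace Vale.Agent.P083

open scoped InnerProductSpace TensorProduct
open Finset TensorProduct Filter Topology BoundedContinuousFunction

universe u

section Lift

variable {B : Type u} [CStarAlgebra B] {ω : Ultrafilter ℕ}

/-- the quotient map -/
noncomputable def qmk : (ℕ →ᵇ B) →ₐ[ℂ] Ultrapower B ω := (nullIdeal B ω).ringCon.mkₐ ℂ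

lemma qmk_surj (z : Ultrapower B ω) : ∃ x, qmk x = z := Quotient.exists_rep z

lemma qmk_star (x : ℕ →ᵇ B) : (qmk (star x) : Ultrapower B ω) = star (qmk x) := rfl

lemma qmk_eq_iff (x y : ℕ →ᵇ B) : (qmk x : Ultrapower B ω) = qmk y ↔
    Tendsto (fun n => ‖x n - y n‖) (ω : Filter ℕ) (𝓝 0) := by
  have h1 : (qmk x : Ultrapower B ω) = qmk y ↔ (nullIdeal B ω).ringCon x y := RingCon.eq _
  rw [h1, TwoSidedIdeal.rel_iff, nullIdeal, TwoSidedIdeal.mem_mk']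
  rfl

/-- the involution of the ultrapower is a ring involution -/
noncomputable instance starRingUltrapower : StarRing (Ultrapower B ω) where
  star_involutive z := by
    obtain ⟨x, rfl⟩ := qmk_surj z
    rw [← qmk_star, ← qmk_star, star_star]
  star_mul z w := by
    obtain ⟨x, rfl⟩ := qmk_surj z
    obtain ⟨y, rfl⟩ := qmk_surj w
    rw [← map_mul, ← qmk_star, ← qmk_star, ← qmk_star, star_mul, map_mul]
  star_add z w := by
    obtain ⟨x, rfl⟩ := qmk_surj z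
    obtain ⟨y, rfl⟩ := qmk_surj w
    rw [← map_add, ← qmk_star, ← qmk_star, ← qmk_star, star_add, map_add]

end Lift

section Amp

variable {B : Type*} [CStarAlgebra B] {G : Type*} [Group G]
  {H L : Type*} [NormedAddCommGroup H] [InnerProductSpace ℂ H] [CompleteSpace H]
  [NormedAddCommGroup L] [InnerProductSpace ℂ L]

variable (H) in
/-- the representation `1 ⊗ ρ` -/
noncomputable def rrep (ρ : G →* (L →L[ℂ] L)) : G →* (H ⊗[ℂ] L →L[ℂ] H ⊗[ℂ] L) :=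
  tensRep (1 : G →* (H →L[ℂ] H)) ρ

omit [CompleteSpace H] in
lemma rrep_apply (ρ : G →* (L →L[ℂ] L)) (g : G) :
    rrep H ρ g = mapL (1 : H →L[ℂ] H) (ρ g) := rfl

omit [CompleteSpace H] in
lemma rrep_tmul (ρ : G →* (L →L[ℂ] L)) (g : G) (h : H) (w : L) :
    rrep H ρ g (h ⊗ₜ[ℂ] w) = h ⊗ₜ[ℂ] ρ g w := rfl

omit [CompleteSpace H] in
lemma IsURep.rrep {ρ : G →* (L →L[ℂ] L)} (hρ : IsURep ρ) : IsURep (rrep H ρ) :=
  isURep_one.tensRep hρ

lemma commute_rrep_amp (ρ : G →* (L →L[ℂ] L)) (π : B →⋆ₐ[ℂ] (H →L[ℂ] H)) (g : G) (b : B) :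
    Commute (rrep H ρ g) (amp L π b) := by
  change rrep H ρ g * amp L π b = amp L π b * rrep H ρ g
  rw [rrep_apply, amp_apply, ← mapL_mul, ← mapL_mul, one_mul, mul_one, one_mul, mul_one]

omit [CompleteSpace H] in
lemma rrep_mem {ρ : G →* (L →L[ℂ] L)} {g : G} {W W' : Submodule ℂ L}
    (h : ∀ w ∈ W, ρ g w ∈ W') {x : H ⊗[ℂ] L} (hx : x ∈ tens ⊤ W) : rrep H ρ g x ∈ tens ⊤ W' := by
  rw [rrep_apply]
  exact mapL_mem_tens (K' := ⊤) (fun _ _ => Submodule.mem_top) h hx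

lemma amp_mem (π : B →⋆ₐ[ℂ] (H →L[ℂ] H)) (b : B) {W : Submodule ℂ L} {x : H ⊗[ℂ] L}
    (hx : x ∈ tens ⊤ W) : amp L π b x ∈ tens ⊤ W := by
  rw [amp_apply]
  exact mapL_mem_tens (K' := ⊤) (fun _ _ => Submodule.mem_top) (fun _ hw => hw) hx

omit [CompleteSpace H] in
lemma Levels.tens {p : ℕ} {s : Fin 4 → G} {ρ : G →* (L →L[ℂ] L)} {W : ℕ → Submodule ℂ L}
    {ζ : ℕ → G} (h : Levels p s ρ W ζ) :
    Levels p s (rrep H ρ) (fun j => tens ⊤ (W j)) ζ where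
  inv j i _ hw := rrep_mem (h.inv j i) hw
  mem := h.mem
  fix i j hij x hx := by
    refine tens_induction (P := fun x => rrep H ρ (ζ j) x = x) (map_zero _) ?_ ?_ hx
    · intro k _ w hw; rw [rrep_tmul, h.fix i j hij w hw]
    · intro x y hx hy; rw [map_add, hx, hy]
  sum j x hx := by
    refine tens_induction (P := fun x => ∑ k ∈ range p, rrep H ρ (ζ j ^ k) x = 0) (by simp)
      ?_ ?_ hx
    · intro k _ w hw
      simp only [rrep_tmul]
      rw [← tmul_sum, h.sum j w hw, tmul_zero]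
    · intro x y hx hy
      simp only [map_add, Finset.sum_add_distrib, hx, hy, add_zero]

lemma norm_rrep_amp_le {ρ : G →* (L →L[ℂ] L)} (hρ : IsURep ρ) (π : B →⋆ₐ[ℂ] (H →L[ℂ] H)) (g : G)
    (b : B) : ‖rrep H ρ g * amp L π b‖ ≤ ‖b‖ := by
  refine ContinuousLinearMap.opNorm_le_bound _ (norm_nonneg _) fun x => ?_
  rw [mul_apply_eq_comp, hρ.rrep.norm_map]
  exact norm_amp_apply_le π b x

lemma rrep_amp_mul (ρ : G →* (L →L[ℂ] L)) (π : B →⋆ₐ[ℂ] (H →L[ℂ] H)) (g h : G) (a b c : B) :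
    rrep H ρ (g * h) * amp L π c - (rrep H ρ g * amp L π a) * (rrep H ρ h * amp L π b) =
      rrep H ρ (g * h) * amp L π (c - a * b) := by
  rw [map_sub, mul_sub, map_mul (amp L π), map_mul (rrep H ρ), mul_assoc (rrep H ρ g) (amp L π a),
    ← mul_assoc (amp L π a), ← (commute_rrep_amp ρ π h a).eq]
  simp only [mul_assoc]

lemma rrep_amp_one (ρ : G →* (L →L[ℂ] L)) (π : B →⋆ₐ[ℂ] (H →L[ℂ] H)) (c : B) :
    rrep H ρ 1 * amp L π c - 1 = rrep H ρ 1 * amp L π (c - 1) := by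
  rw [map_sub, map_one, map_one, one_mul, one_mul]

lemma rrep_amp_inner {ρ : G →* (L →L[ℂ] L)} (hρ : IsURep ρ) (π : B →⋆ₐ[ℂ] (H →L[ℂ] H)) (g : G)
    (b : B) (x y : H ⊗[ℂ] L) :
    ‖⟪(rrep H ρ g * amp L π b) x, (rrep H ρ g * amp L π b) y⟫_ℂ - ⟪x, y⟫_ℂ‖ ≤
      ‖star b * b - 1‖ * (‖x‖ * ‖y‖) := by
  have e : ⟪(rrep H ρ g * amp L π b) x, (rrep H ρ g * amp L π b) y⟫_ℂ - ⟪x, y⟫_ℂ =
      ⟪x, amp L π (star b * b - 1) y⟫_ℂ := by
    have := hρ.rrep (H := H) g (amp L π b x) (amp L π b y)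
    rw [mul_apply_eq_comp, mul_apply_eq_comp]
    refine (congrArg (fun z => z - ⟪x, y⟫_ℂ) (this.trans (amp_inner π b x _))).trans ?_
    rw [alg_mul_apply, map_sub, map_one, _root_.sub_apply, one_apply_eq_self]
    exact (inner_sub_right (𝕜 := ℂ) x _ _).symm
  rw [e]
  refine (norm_inner_le_norm (𝕜 := ℂ) x _).trans ?_
  calc ‖x‖ * ‖amp L π (star b * b - 1) y‖ ≤ ‖x‖ * (‖star b * b - 1‖ * ‖y‖) := by
        gcongr; exact norm_amp_apply_le π _ _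
    _ = _ := by ring

lemma base_energy (ρ : G →* (L →L[ℂ] L)) (π : B →⋆ₐ[ℂ] (H →L[ℂ] H)) {h : H} (hh : ‖h‖ = 1)
    {I : Type*} [Fintype I] (r : I → B) (w : I → L) (g : G) (b : B) (τ : I ≃ I)
    (hτ : ∀ i, ρ g (w i) = w (τ i)) :
    ‖(rrep H ρ g * amp L π b) (∑ i, π (r i) h ⊗ₜ[ℂ] w i) - ∑ i, π (r i) h ⊗ₜ[ℂ] w i‖ ≤
      ∑ i, ‖b * r i - r (τ i)‖ * ‖w (τ i)‖ := by
  rw [map_sum, ← τ.sum_comp (fun i => π (r i) h ⊗ₜ[ℂ] w i), ← Finset.sum_sub_distrib]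
  refine (norm_sum_le _ _).trans (Finset.sum_le_sum fun i _ => ?_)
  rw [mul_apply_eq_comp, amp_tmul, rrep_tmul, hτ, ← sub_tmul, norm_tmul, ← mul_apply_eq_comp,
    ← map_mul, ← _root_.sub_apply, ← map_sub]
  gcongr
  refine ((π _).le_opNorm _).trans ?_
  rw [hh, mul_one]
  exact NonUnitalStarAlgHom.norm_apply_le π _

lemma base_norm (π : B →⋆ₐ[ℂ] (H →L[ℂ] H)) (h : H) {I : Type*} [Fintype I] (r : I → B)
    (w : I → L) {d : L} (hd : ‖d‖ ≤ 1) :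
    ‖π (∑ i, ⟪d, w i⟫_ℂ • r i) h‖ ≤ ‖∑ i, π (r i) h ⊗ₜ[ℂ] w i‖ := by
  set y := π (∑ i, ⟪d, w i⟫_ℂ • r i) h with hy
  set ξ := ∑ i, π (r i) h ⊗ₜ[ℂ] w i with hξ
  have e : ⟪y ⊗ₜ[ℂ] d, ξ⟫_ℂ = ⟪y, y⟫_ℂ := by
    conv_rhs => enter [3]; rw [hy, map_sum, _root_.sum_apply]
    rw [inner_sum, inner_sum]
    refine Finset.sum_congr rfl fun i _ => ?_
    rw [map_smul, _root_.smul_apply, inner_smul_right, mul_comm]
    exact inner_tmul _ _ _ _ _
  have e2 := norm_inner_le_norm (𝕜 := ℂ) (y ⊗ₜ[ℂ] d) ξ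
  have e3 : ‖⟪y ⊗ₜ[ℂ] d, ξ⟫_ℂ‖ = ‖y‖ * ‖y‖ := by
    rw [e, inner_self_eq_norm_sq_to_K, norm_pow, RCLike.norm_ofReal, abs_norm, sq]
  rw [norm_tmul] at e2
  have e4 : ‖y‖ * ‖y‖ ≤ ‖y‖ * ‖ξ‖ := by
    refine e3.symm.le.trans (e2.trans ?_)
    gcongr
    exact mul_le_of_le_one_right (norm_nonneg _) hd
  rcases (norm_nonneg y).eq_or_lt with h0 | h0
  · rw [← h0]; exact norm_nonneg _
  · exact le_of_mul_le_mul_left e4 h0

end Amp

theorem no_embedding {G : Type*} [Group G] {p : ℕ} (hp : p.Prime) (h36 : 36 ≤ p)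
    {s : Fin 4 → G} (hs : Gens p s) {L : Type*} [NormedAddCommGroup L] [InnerProductSpace ℂ L]
    {ρ : G →* (L →L[ℂ] L)} (hρ : IsURep ρ) {W : ℕ → Submodule ℂ L} {ζ : ℕ → G}
    (hL : Levels p s ρ W ζ) {ι : Type*} [Fintype ι] [Nonempty ι] (t : ι → G)
    (ht : ∀ i, ∃ σ : ι ≃ ι, ∀ c, ∃ g ∈ Submonoid.closure (Set.range s),
      s i * t c = t (σ c) * g)
    (hWt : ∀ j c, ∀ w ∈ W j, ρ (t c) w ∈ W (j + 1))
    (hWo : ∀ j c c', c ≠ c' → ∀ w ∈ W j, ∀ w' ∈ W j, ⟪ρ (t c) w, ρ (t c') w'⟫_ℂ = 0)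
    {A : Type*} [Ring A] [Algebra ℂ A] [StarRing A] (u : G →* A) (hu : ∀ g, star (u g) * u g = 1)
    {I : Type*} [Fintype I] (r : I → A) (w : I → L) (hw : ∀ i, w i ∈ W 0)
    (hτ : ∀ a, ∃ τ : I ≃ I, ∀ i, u (s a) * r i = r (τ i) ∧ ρ (s a) (w i) = w (τ i))
    {d : L} (hd : ‖d‖ ≤ 1) (hq : ∑ i, ⟪d, w i⟫_ℂ • r i ≠ 0)
    {B : Type u} [CStarAlgebra B] {S : Fin 2 → B} (hS : CuntzFam S)
    (hgen : (StarAlgebra.adjoin ℂ (Set.range S)).topologicalClosure = ⊤) (ω : Ultrafilter ℕ)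
    (φ : A →⋆ₐ[ℂ] Ultrapower B ω) : ¬ Function.Injective φ := by
  intro hφ
  choose l hl using fun a => qmk_surj (φ a)
  set q : ℕ →ᵇ B := ∑ i, ⟪d, w i⟫_ℂ • l (r i) with hqdef
  have hq1 : ¬ Tendsto (fun n => ‖q n‖) (ω : Filter ℕ) (𝓝 0) := by
    intro h
    have h1 : (qmk q : Ultrapower B ω) = qmk 0 := (qmk_eq_iff q 0).2 (by simpa using h)
    refine hq (hφ ?_)
    rw [map_zero, map_sum, ← map_zero (qmk : (ℕ →ᵇ B) →ₐ[ℂ] Ultrapower B ω), ← h1, hqdef, map_sum]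
    exact Finset.sum_congr rfl fun i _ => by rw [map_smul, map_smul, hl]
  obtain ⟨c₀, hc₀, hc⟩ : ∃ c₀ : ℝ, 0 < c₀ ∧ ∀ᶠ n in (ω : Filter ℕ), c₀ ≤ ‖q n‖ := by
    rw [Metric.tendsto_nhds] at hq1
    push Not at hq1
    obtain ⟨c₀, h0, h1⟩ := hq1
    refine ⟨c₀, h0, h1.mono fun n hn => ?_⟩
    simpa using hn
  have hB : Nontrivial B := by
    obtain ⟨n, hn⟩ := hc.exists
    exact ⟨q n, 0, norm_pos_iff.1 (hc₀.trans_le hn)⟩
  choose H i1 i2 i3 π h hh hqh using fun n => exists_rep (q n)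
  have hmul : ∀ a b c : A, a * b = c →
      Tendsto (fun n => ‖l a n * l b n - l c n‖) (ω : Filter ℕ) (𝓝 0) := fun a b c habc =>
    (qmk_eq_iff (l a * l b) (l c)).1 (by rw [map_mul, hl, hl, hl, ← map_mul, habc])
  have hunit : ∀ g, Tendsto (fun n => ‖star (l (u g) n) * l (u g) n - 1‖) (ω : Filter ℕ) (𝓝 0) :=
    fun g => (qmk_eq_iff (star (l (u g)) * l (u g)) 1).1
      (by rw [map_mul, qmk_star, hl, ← map_star, ← map_mul, hu, map_one, map_one])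
  let v : ∀ n, G → (H n ⊗[ℂ] L →L[ℂ] H n ⊗[ℂ] L) := fun n g =>
    rrep (H n) ρ g * amp L (π n) (l (u g) n)
  have hv : AsympRep ω v :=
    { bdd := fun g => ⟨‖l (u g)‖, fun n =>
        (norm_rrep_amp_le hρ _ _ _).trans ((l (u g)).norm_coe_le_norm n)⟩
      mul := fun g g' => by
        refine squeeze_zero (fun _ => norm_nonneg _) (fun n => ?_)
          (hmul (u g) (u g') (u (g * g')) (map_mul u g g').symm)
        rw [norm_sub_rev (l (u g) n * _)]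
        exact (congrArg norm (rrep_amp_mul ρ (π n) g g' _ _ _)).le.trans
          (norm_rrep_amp_le hρ _ _ _)
      one := by
        refine squeeze_zero (fun _ => norm_nonneg _) (fun n => ?_)
          ((qmk_eq_iff (l (u 1)) 1).1 (by rw [hl, map_one, map_one, map_one]))
        exact (congrArg norm (rrep_amp_one ρ (π n) _)).le.trans (norm_rrep_amp_le hρ _ _ _)
      inner := fun g => ⟨_, hunit g, fun n x y => rrep_amp_inner hρ (π n) g _ x y⟩ }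
  have hp' : (0 : ℝ) < p := by exact_mod_cast hp.pos
  set γ : ℝ := 1 / (8 * (p : ℝ) ^ 2) / 100 with hγ
  have hγ0 : 0 < γ := by positivity
  obtain ⟨δ, hδ0, hδ, hstep⟩ := hv.step hp h36 hs t ht (fun n j => tens ⊤ (W j))
    (fun n j i x hx => rrep_mem (hL.inv j i) (amp_mem _ _ hx))
    (fun n j c x hx => rrep_mem (hWt j c) (amp_mem _ _ hx))
    (fun n j c c' hcc x hx => by
      refine inner_tens_eq_zero (K := ⊤) (K' := ⊤) (W := (W j).map (ρ (t c)).toLinearMap)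
        (W' := (W j).map (ρ (t c')).toLinearMap) ?_
        (rrep_mem (fun _ hw => Submodule.mem_map_of_mem hw) (amp_mem _ _ hx))
        (rrep_mem (fun _ hw => Submodule.mem_map_of_mem hw) (amp_mem _ _ hx))
      rintro k - k' - _ ⟨w, hw, rfl⟩ _ ⟨w', hw', rfl⟩
      exact mul_eq_zero_of_right _ (hWo j c c' hcc w hw w' hw'))
    (δ₀ := (γ / 2) ^ 2) (by positivity)
  let ξ : ∀ n, H n ⊗[ℂ] L := fun n => ∑ i, π n (l (r i) n) (h n) ⊗ₜ[ℂ] w i
  have hξE : Tendsto (fun n => energy (fun a => v n (s a)) (ξ n)) (ω : Filter ℕ) (𝓝 0) := by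
    have : ∀ a, Tendsto (fun n => ‖v n (s a) (ξ n) - ξ n‖ ^ 2) (ω : Filter ℕ) (𝓝 0) := by
      intro a
      obtain ⟨τ, hτ⟩ := hτ a
      have e1 : Tendsto (fun n => ∑ i, ‖l (u (s a)) n * l (r i) n - l (r (τ i)) n‖ * ‖w (τ i)‖)
          (ω : Filter ℕ) (𝓝 0) := by
        simpa using tendsto_finsetSum univ fun i _ =>
          (hmul _ _ _ (hτ i).1).mul_const ‖w (τ i)‖
      have e2 : Tendsto (fun n => ‖v n (s a) (ξ n) - ξ n‖) (ω : Filter ℕ) (𝓝 0) :=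
        squeeze_zero (fun _ => norm_nonneg _) (fun n =>
          base_energy ρ (π n) (hh n) (fun i => l (r i) n) w (s a) _ τ fun i => (hτ i).2) e1
      simpa using e2.pow 2
    simpa [energy] using tendsto_finsetSum univ fun a _ => this a
  have hbase : ∀ᶠ n in (ω : Filter ℕ), ∃ x ∈ tens (⊤ : Submodule ℂ (H n)) (W 0),
      ‖x‖ = 1 ∧ energy (fun a => v n (s a)) x ≤ δ := by
    filter_upwards [hc, hξE.eventually (gt_mem_nhds (show 0 < δ * c₀ ^ 2 by positivity))]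
      with n h1 h2
    by_contra hcon
    have h3 := le_energy_of_unit _ _ hcon (ξ n)
      (Submodule.sum_mem _ fun i _ => tmul_mem_tens Submodule.mem_top (hw i))
    have h4 : c₀ ≤ ‖ξ n‖ := by
      refine h1.trans ((hqh n).symm.le.trans ?_)
      have := base_norm (π n) (h n) (fun i => l (r i) n) w hd
      refine le_trans (le_of_eq ?_) this
      simp [hqdef]
    have h5 : δ * c₀ ^ 2 ≤ δ * ‖ξ n‖ ^ 2 := by gcongr
    linarith
  have hU : ∀ᶠ n in (ω : Filter ℕ), ∀ a, ‖π n (l (u (s a)) n)‖ ^ 2 ≤ 1 + γ := by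
    refine eventually_all.2 fun a => ?_
    filter_upwards [(hunit (s a)).eventually (gt_mem_nhds hγ0)] with n hn
    have h1 : ‖π n (l (u (s a)) n)‖ ≤ ‖l (u (s a)) n‖ := NonUnitalStarAlgHom.norm_apply_le _ _
    have h2 : ‖l (u (s a)) n‖ ^ 2 ≤ 1 + γ := by
      rw [sq, ← CStarRing.norm_star_mul_self]
      have := norm_add_le (1 : B) (star (l (u (s a)) n) * l (u (s a)) n - 1)
      rw [add_sub_cancel, norm_one] at this
      linarith
    exact le_trans (by gcongr) h2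
  obtain ⟨n, hn1, hn2, hn3⟩ := (hstep.and (hbase.and hU)).exists
  have hall : ∀ j, ∃ x ∈ tens (⊤ : Submodule ℂ (H n)) (W j),
      ‖x‖ = 1 ∧ energy (fun a => v n (s a)) x ≤ δ := fun j => by
    induction j with
    | zero => exact hn2
    | succ j ih => exact hn1 j ih
  choose x hxW hx1 hxE using hall
  obtain ⟨K, hK, J, hJ1, hJ2, hJ3⟩ := cuntz_finite_rank (π n) (π' := amp L (π n)) hS
    (amp_inner (π n)) (norm_amp_le (π n)) (hh n) hgen (fun a => l (u (s a)) n)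
    (ε := γ / 2) (by positivity)
  refine (hL.tens (H := H n)).no_finite_rank hρ.rrep hp h36 hs K
    (fun a => π n (l (u (s a)) n)) (γ := γ) (by linarith) hn3 (fun j => J (x j))
    (fun j => hJ2 _ (fun b _ hy => amp_mem _ b hy) _ (hxW j))
    (fun j => (hJ1 _).trans (hx1 j)) fun j a => ?_
  refine (hJ3 a _ (hρ.rrep.opNorm_le (s a)) (commute_rrep_amp ρ (π n) (s a)) (x j)).trans ?_
  have h1 : ‖v n (s a) (x j) - x j‖ ^ 2 ≤ (γ / 2) ^ 2 :=
    (le_energy (fun a => v n (s a)) (x j) a).trans ((hxE j).trans hδ)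
  have h2 : ‖v n (s a) (x j) - x j‖ ≤ γ / 2 :=
    (pow_le_pow_iff_left₀ (norm_nonneg _) (by positivity) (by norm_num)).1 h1
  rw [hx1, mul_one]
  have h3 : ‖rrep (H n) ρ (s a) (amp L (π n) (l (u (s a)) n) (x j)) - x j‖ ≤ γ / 2 := h2
  linarith

theorem no_embedding' {G : Type*} [Group G] {p : ℕ} (hp : p.Prime) (h36 : 36 ≤ p)
    {s : Fin 4 → G} (hs : Gens p s) {L : Type*} [NormedAddCommGroup L] [InnerProductSpace ℂ L]
    {ρ : G →* (L →L[ℂ] L)} (hρ : IsURep ρ) {W : ℕ → Submodule ℂ L} {ζ : ℕ → G}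
    (hL : Levels p s ρ W ζ) {ι : Type*} [Fintype ι] [Nonempty ι] (t : ι → G)
    (ht : ∀ i, ∃ σ : ι ≃ ι, ∀ c, ∃ g ∈ Submonoid.closure (Set.range s),
      s i * t c = t (σ c) * g)
    (hWt : ∀ j c, ∀ w ∈ W j, ρ (t c) w ∈ W (j + 1))
    (hWo : ∀ j c c', c ≠ c' → ∀ w ∈ W j, ∀ w' ∈ W j, ⟪ρ (t c) w, ρ (t c') w'⟫_ℂ = 0)
    {A : Type*} [Ring A] [Algebra ℂ A] [StarRing A] (u : G →* A) (hu : ∀ g, star (u g) * u g = 1)
    {I : Type*} [Fintype I] (r : I → A) (w : I → L) (hw : ∀ i, w i ∈ W 0)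
    (hτ : ∀ a, ∃ τ : I ≃ I, ∀ i, u (s a) * r i = r (τ i) ∧ ρ (s a) (w i) = w (τ i))
    {d : L} (hd : ‖d‖ ≤ 1) (hq : ∑ i, ⟪d, w i⟫_ℂ • r i ≠ 0)
    {B : Type u} [CStarAlgebra B] {S : Fin 2 → B} (hS : CuntzFam S)
    (hgen : (StarAlgebra.adjoin ℂ (Set.range S)).topologicalClosure = ⊤) (ω : Ultrafilter ℕ)
    (φ : A →⋆ₙₐ[ℂ] Ultrapower B ω) : ¬ Function.Injective φ := by
  intro hφ
  have e1 : ∀ a, φ a * (1 - φ 1) = 0 := fun a => by rw [mul_sub, ← map_mul, mul_one, mul_one, sub_self]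
  have e2 : ∀ a, (1 - φ 1) * φ a = 0 := fun a => by rw [sub_mul, ← map_mul, one_mul, one_mul, sub_self]
  have e3 : (1 - φ 1) * (1 - φ 1) = 1 - φ 1 := by rw [mul_sub, e2, mul_one, sub_zero]
  have e4 : ∀ a b, (φ a + (1 - φ 1)) * (φ b + (1 - φ 1)) = φ (a * b) + (1 - φ 1) := fun a b => by
    rw [add_mul, mul_add, mul_add, e1, e2, e3, map_mul, add_zero, zero_add]
  let u' : G →* Ultrapower B ω :=
    { toFun := fun g => φ (u g) + (1 - φ 1)
      map_one' := by rw [map_one, add_sub_cancel]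
      map_mul' := fun g h => by rw [e4, map_mul] }
  refine no_embedding hp h36 hs hρ hL t ht hWt hWo u' (fun g => ?_) (fun i => φ (r i)) w hw
    (fun a => ?_) hd (fun h0 => hq (hφ ?_)) hS hgen ω (StarAlgHom.id ℂ _) fun _ _ h => h
  · change star (φ (u g) + (1 - φ 1)) * (φ (u g) + (1 - φ 1)) = 1
    rw [star_add, star_sub, star_one, ← map_star φ, ← map_star φ, star_one, e4, hu,
      add_sub_cancel]
  · obtain ⟨τ, hτ⟩ := hτ a
    refine ⟨τ, fun i => ⟨?_, (hτ i).2⟩⟩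
    change (φ (u (s a)) + (1 - φ 1)) * φ (r i) = _
    rw [add_mul, e2, add_zero, ← map_mul, (hτ i).1]
  · rw [map_zero, map_sum, ← h0]
    exact Finset.sum_congr rfl fun i _ => map_smul φ _ _

end Vale.Agent.P083
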