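import Vale.Agent.P083.Perm

/-!
The concrete group: affine maps of the space of two-sided sequences over `ZMod 37`, acting on
cylinder sets.
-/

namespace Vale.Agent.P083

open scoped Pointwise

universe u

/-- two-sided sequences over the field with 37 elements -/
abbrev Sq : Type := ℤ → ZMod 37

/-- elementary map: add `c` times the coordinate `k - r` to the coordinate `k`, when
`k - r ≡ i` modulo 3 -/
def elf (i r : ℤ) (c : ZMod 37) (f : Sq) : Sq :=
  fun k => f k + if 3 ∣ k - r - i then c * f (k - r) else 0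

lemma elf_elf {r : ℤ} (hr : ¬ 3 ∣ r) (i : ℤ) (c c' : ZMod 37) (f : Sq) :
    elf i r c (elf i r c' f) = elf i r (c + c') f := by
  funext k
  simp only [elf]
  split_ifs with h1 h2
  · omega
  · ring
  · ring

lemma elf_zero (i r : ℤ) (f : Sq) : elf i r 0 f = f := by
  funext k; simp [elf]

/-- the elementary map as a permutation -/
def el (i r : ℤ) (hr : ¬ 3 ∣ r) (c : ZMod 37) : Equiv.Perm Sq where
  toFun := elf i r c
  invFun := elf i r (-c)
  left_inv f := by rw [elf_elf hr, neg_add_cancel, elf_zero]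
  right_inv f := by rw [elf_elf hr, add_neg_cancel, elf_zero]

lemma el_pow (i r : ℤ) (hr : ¬ 3 ∣ r) (c : ZMod 37) (n : ℕ) :
    el i r hr c ^ n = el i r hr (n * c) := by
  induction n with
  | zero => ext1 f; simp only [pow_zero, Nat.cast_zero, zero_mul]; exact (elf_zero i r f).symm
  | succ n ih =>
    rw [pow_succ, ih]; ext1 f
    change elf i r _ (elf i r c f) = elf i r _ f
    rw [elf_elf hr]; push_cast; ring_nf

lemma el_pow_37 (i r : ℤ) (hr : ¬ 3 ∣ r) (c : ZMod 37) : el i r hr c ^ 37 = 1 := by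
  rw [el_pow, ZMod.natCast_self, zero_mul]; ext1 f; exact elf_zero i r f

/-- the three linear generators -/
def gA (i : ℤ) : Equiv.Perm Sq := el i 1 (by norm_num) 1

/-- their commutators -/
def gC (i : ℤ) : Equiv.Perm Sq := el i 2 (by norm_num) 1

lemma gA_pow (i : ℤ) : gA i ^ 37 = 1 := el_pow_37 _ _ _ _

lemma gA_apply (i : ℤ) (f : Sq) (k : ℤ) :
    gA i f k = f k + if 3 ∣ k - 1 - i then 1 * f (k - 1) else 0 := rfl

lemma gC_apply (i : ℤ) (f : Sq) (k : ℤ) :
    gC i f k = f k + if 3 ∣ k - 2 - i then 1 * f (k - 2) else 0 := rfl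

/-- translations -/
def tr (k : ℤ) (c : ZMod 37) : Equiv.Perm Sq where
  toFun f m := f m + if m = k then c else 0
  invFun f m := f m - if m = k then c else 0
  left_inv f := by funext m; simp
  right_inv f := by funext m; simp

lemma tr_apply (k : ℤ) (c : ZMod 37) (f : Sq) (m : ℤ) :
    tr k c f m = f m + if m = k then c else 0 := rfl

lemma tr_pow (k : ℤ) (c : ZMod 37) (n : ℕ) : tr k c ^ n = tr k (n * c) := by
  induction n with
  | zero => ext f m; simp [tr_apply]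
  | succ n ih =>
    rw [pow_succ, ih]; ext f m
    simp only [Equiv.Perm.mul_apply, tr_apply]
    split_ifs <;> push_cast <;> ring

lemma tr_zero (k : ℤ) : tr k 0 = 1 := by ext f m; simp [tr_apply]

lemma tr_pow_37 (k : ℤ) (c : ZMod 37) : tr k c ^ 37 = 1 := by
  rw [tr_pow, ZMod.natCast_self, zero_mul, tr_zero]

lemma tr_comm (k k' : ℤ) (c c' : ZMod 37) : Commute (tr k c) (tr k' c') := by
  change _ * _ = _ * _
  ext f m
  simp only [Equiv.Perm.mul_apply, tr_apply]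
  ring

/-- the shift -/
def sh : Equiv.Perm Sq where
  toFun f m := f (m - 1)
  invFun f m := f (m + 1)
  left_inv f := by funext m; simp
  right_inv f := by funext m; simp

lemma sh_apply (f : Sq) (m : ℤ) : sh f m = f (m - 1) := rfl

lemma gA_gA {i j : ℤ} (h : 3 ∣ j - i - 1) : gA j * gA i = gC i * gA i * gA j := by
  ext f k
  simp only [Equiv.Perm.mul_apply, gA_apply, gC_apply]
  rw [show k - 1 - 1 = k - 2 by ring]
  split_ifs <;> first | (exfalso; omega) | ring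

lemma gC_comm_left (i : ℤ) : Commute (gC i) (gA i) := by
  change _ * _ = _ * _
  ext f k
  simp only [Equiv.Perm.mul_apply, gA_apply, gC_apply]
  split_ifs <;> first | (exfalso; omega) | ring

lemma gC_comm_right {i j : ℤ} (h : 3 ∣ j - i - 1) : Commute (gC i) (gA j) := by
  change _ * _ = _ * _
  ext f k
  simp only [Equiv.Perm.mul_apply, gA_apply, gC_apply]
  split_ifs <;> first | (exfalso; omega) | ring

lemma gA_tr (i k : ℤ) (c : ZMod 37) :
    gA i * tr k c = tr (k + 1) (if 3 ∣ k - i then c else 0) * tr k c * gA i := by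
  ext f m
  simp only [Equiv.Perm.mul_apply, gA_apply, tr_apply]
  split_ifs <;> first | (exfalso; omega) | ring

lemma gA_sh {i j : ℤ} (h : 3 ∣ j - i - 1) : gA j * sh = sh * gA i := by
  ext f m
  simp only [Equiv.Perm.mul_apply, gA_apply, sh_apply]
  split_ifs <;> first | (exfalso; omega) | ring

lemma tr_sh (k : ℤ) (c : ZMod 37) : tr (k + 1) c * sh = sh * tr k c := by
  ext f m
  simp only [Equiv.Perm.mul_apply, tr_apply, sh_apply]
  split_ifs <;> first | (exfalso; omega) | ring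

/-- the four generators of finite order -/
def sP : Fin 4 → Equiv.Perm Sq := ![gA 0, gA 1, gA 2, tr 0 1]

lemma heis_symm {G : Type*} [Group G] {p : ℕ} {a b : G}
    (h : ∃ c, c ^ p = 1 ∧ Commute c a ∧ Commute c b ∧ a * b = c * b * a) :
    ∃ c, c ^ p = 1 ∧ Commute c b ∧ Commute c a ∧ b * a = c * a * b := by
  obtain ⟨c, h1, h2, h3, h4⟩ := h
  refine ⟨c⁻¹, by rw [inv_pow, h1, inv_one], h3.inv_left, h2.inv_left, ?_⟩
  rw [mul_assoc, h4]; group

lemma heis_AA {i j : ℤ} (h : 3 ∣ j - i - 1) :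
    ∃ c, c ^ 37 = 1 ∧ Commute c (gA j) ∧ Commute c (gA i) ∧ gA j * gA i = c * gA i * gA j :=
  ⟨gC i, el_pow_37 _ _ _ _, gC_comm_right h, gC_comm_left i, gA_gA h⟩

lemma heis_Ab {i : ℤ} (h : i = 0 ∨ i = 1 ∨ i = 2) :
    ∃ c, c ^ 37 = 1 ∧ Commute c (gA i) ∧ Commute c (tr 0 1) ∧
      gA i * tr 0 1 = c * tr 0 1 * gA i := by
  refine ⟨_, tr_pow_37 _ _, ?_, tr_comm _ _ _ _, gA_tr i 0 1⟩
  rcases h with rfl | rfl | rfl
  · change _ * _ = _ * _
    rw [gA_tr, if_neg (by norm_num : ¬ (3 : ℤ) ∣ 0 + 1 - 0), tr_zero, one_mul]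
  · rw [if_neg (by norm_num), tr_zero]; exact Commute.one_left _
  · rw [if_neg (by norm_num), tr_zero]; exact Commute.one_left _

lemma gens_sP : Gens 37 sP where
  pow i := by
    fin_cases i
    exacts [gA_pow 0, gA_pow 1, gA_pow 2, tr_pow_37 0 1]
  heis i j hij := by
    have a10 := heis_AA (i := 0) (j := 1) (by norm_num)
    have a21 := heis_AA (i := 1) (j := 2) (by norm_num)
    have a02 := heis_AA (i := 2) (j := 0) (by norm_num)
    have b0 := heis_Ab (i := 0) (by norm_num)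
    have b1 := heis_Ab (i := 1) (by norm_num)
    have b2 := heis_Ab (i := 2) (by norm_num)
    fin_cases i <;> fin_cases j <;> first | exact absurd rfl hij | skip
    exacts [heis_symm a10, a02, b0, a10, heis_symm a21, b1, heis_symm a02, a21, b2,
      heis_symm b0, heis_symm b1, heis_symm b2]

/-- the monoid generated by the four generators -/
abbrev ΓP : Submonoid (Equiv.Perm Sq) := Submonoid.closure (Set.range sP)

lemma sP_mem (i : Fin 4) : sP i ∈ ΓP := Submonoid.subset_closure ⟨i, rfl⟩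

lemma inv_mem_ΓP {g : Equiv.Perm Sq} (hg : g ∈ ΓP) (h : g ^ 37 = 1) : g⁻¹ ∈ ΓP := by
  have : g⁻¹ = g ^ 36 := by
    rw [inv_eq_iff_mul_eq_one, ← pow_succ', h]
  rw [this]; exact ΓP.pow_mem hg _

lemma tr_mem (j : ℕ) : tr j 1 ∈ ΓP := by
  induction j with
  | zero => exact sP_mem 3
  | succ j ih =>
    have key : ∀ i : ℤ, gA i ∈ ΓP → 3 ∣ (j : ℤ) - i → tr (j + 1 : ℕ) 1 ∈ ΓP := fun i hi hd => by
      have e := gA_tr i j 1
      rw [if_pos hd] at e
      have : tr (j + 1 : ℕ) 1 = gA i * tr j 1 * (gA i)⁻¹ * (tr j 1)⁻¹ := by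
        rw [e]; push_cast; group
      rw [this]
      exact ΓP.mul_mem (ΓP.mul_mem (ΓP.mul_mem hi ih) (inv_mem_ΓP hi (el_pow_37 _ _ _ _)))
        (inv_mem_ΓP ih (tr_pow_37 _ _))
    have : (3 : ℤ) ∣ j - 0 ∨ (3 : ℤ) ∣ j - 1 ∨ (3 : ℤ) ∣ j - 2 := by omega
    rcases this with h | h | h
    exacts [key 0 (sP_mem 0) h, key 1 (sP_mem 1) h, key 2 (sP_mem 2) h]

lemma tr_zero_mem (c : ZMod 37) : tr 0 c ∈ ΓP := by
  have : tr 0 c = tr 0 1 ^ c.val := by rw [tr_pow, ZMod.natCast_zmod_val, mul_one]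
  rw [this]; exact ΓP.pow_mem (sP_mem 3) _

lemma step_A {i j : ℤ} (h : 3 ∣ j - i - 1) (hi : gA i ∈ ΓP) (c : ZMod 37) :
    ∃ g ∈ ΓP, gA j * (tr 0 c * sh) = tr 0 c * sh * g := by
  refine ⟨tr 0 (if 3 ∣ 0 - j then c else 0) * gA i, ΓP.mul_mem (tr_zero_mem _) hi, ?_⟩
  rw [← mul_assoc, gA_tr, mul_assoc, gA_sh h, (tr_comm _ _ _ _).eq, mul_assoc, ← mul_assoc _ sh,
    tr_sh]
  simp only [mul_assoc]

lemma step_sP (i : Fin 4) : ∃ σ : ZMod 37 ≃ ZMod 37, ∀ c, ∃ g ∈ ΓP,
    sP i * (tr 0 c * sh) = tr 0 (σ c) * sh * g := by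
  fin_cases i
  · exact ⟨Equiv.refl _, step_A (i := 2) (j := 0) (by norm_num) (sP_mem 2)⟩
  · exact ⟨Equiv.refl _, step_A (i := 0) (j := 1) (by norm_num) (sP_mem 0)⟩
  · exact ⟨Equiv.refl _, step_A (i := 1) (j := 2) (by norm_num) (sP_mem 1)⟩
  · refine ⟨Equiv.addRight 1, fun c => ⟨1, ΓP.one_mem, ?_⟩⟩
    change tr 0 1 * (tr 0 c * sh) = tr 0 (c + 1) * sh * 1
    ext f m
    simp only [Equiv.Perm.mul_apply, tr_apply, mul_one]
    split_ifs <;> ring

/-- cylinder sets -/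
def cyl (j : ℤ) (x : Sq) : Set Sq := {f | ∀ k < j, f k = x k}

lemma cyl_congr {j : ℤ} {x x' : Sq} (h : ∀ k < j, x k = x' k) : cyl j x = cyl j x' := by
  ext f
  exact ⟨fun hf k hk => (hf k hk).trans (h k hk), fun hf k hk => (hf k hk).trans (h k hk).symm⟩

lemma cyl_inj {j : ℤ} {x x' : Sq} (h : cyl j x = cyl j x') {k : ℤ} (hk : k < j) : x k = x' k := by
  have : x ∈ cyl j x' := by rw [← h]; exact fun _ _ => rfl
  exact this k hk

lemma smul_cyl {g : Equiv.Perm Sq} {j j' : ℤ}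
    (h1 : ∀ f f' : Sq, (∀ k < j, f k = f' k) → ∀ k < j', g f k = g f' k)
    (h2 : ∀ f f' : Sq, (∀ k < j', f k = f' k) → ∀ k < j, g.symm f k = g.symm f' k) (x : Sq) :
    g • cyl j x = cyl j' (g x) := by
  ext f
  rw [Set.mem_smul_set_iff_inv_smul_mem]
  constructor
  · intro hf
    have := h1 _ _ hf
    simpa [cyl] using this
  · intro hf
    have := h2 _ _ hf
    simpa [cyl] using this

lemma elf_causal (i : ℤ) (c : ZMod 37) (j : ℤ) (f f' : Sq) (h : ∀ k < j, f k = f' k) :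
    ∀ k < j, elf i 1 c f k = elf i 1 c f' k := fun k hk => by
  simp only [elf, h k hk, h (k - 1) (by omega)]

lemma gA_cyl (i j : ℤ) (x : Sq) : gA i • cyl j x = cyl j (gA i x) :=
  smul_cyl (elf_causal i _ j) (elf_causal i _ j) x

lemma tr_cyl (k : ℤ) (c : ZMod 37) (j : ℤ) (x : Sq) : tr k c • cyl j x = cyl j (tr k c x) :=
  smul_cyl (fun f f' h m hm => by rw [tr_apply, tr_apply, h m hm])
    (fun f f' h m hm => by
      change f m - _ = f' m - _
      rw [h m hm]) x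

lemma sh_cyl (j : ℤ) (x : Sq) : sh • cyl j x = cyl (j + 1) (sh x) :=
  smul_cyl (g := sh) (fun _ _ h m _ => h (m - 1) (by omega))
    (fun _ _ h m _ => h (m + 1) (by omega)) x

/-- the level sets -/
def lvl (j : ℕ) : Set (Set Sq) := {y | ∃ x : Sq, (∀ k < 0, x k = 0) ∧ y = cyl (j + 1) x}

lemma gA_lvl (i : ℤ) {j : ℕ} {y : Set Sq} (hy : y ∈ lvl j) : gA i • y ∈ lvl j := by
  obtain ⟨x, hx, rfl⟩ := hy
  refine ⟨gA i x, fun k hk => ?_, gA_cyl _ _ _⟩
  rw [gA_apply, hx k hk, hx (k - 1) (by omega)]; simp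

lemma tr_lvl (k : ℕ) (c : ZMod 37) {j : ℕ} {y : Set Sq} (hy : y ∈ lvl j) :
    tr k c • y ∈ lvl j := by
  obtain ⟨x, hx, rfl⟩ := hy
  refine ⟨tr k c x, fun m hm => ?_, tr_cyl _ _ _ _⟩
  rw [tr_apply, hx m hm, if_neg (by omega), add_zero]

lemma sP_lvl (j : ℕ) (i : Fin 4) {y : Set Sq} (hy : y ∈ lvl j) : sP i • y ∈ lvl j := by
  fin_cases i
  exacts [gA_lvl 0 hy, gA_lvl 1 hy, gA_lvl 2 hy, tr_lvl 0 1 hy]

lemma tr_fix {i j : ℕ} (hij : i < j) (c : ZMod 37) {y : Set Sq} (hy : y ∈ lvl i) :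
    tr j c • y = y := by
  obtain ⟨x, -, rfl⟩ := hy
  rw [tr_cyl]
  exact cyl_congr fun k hk => by rw [tr_apply, if_neg (by omega), add_zero]

lemma gA_central (i : ℤ) (j : ℕ) {y : Set Sq} (hy : y ∈ lvl j) :
    gA i • tr j 1 • y = tr j 1 • gA i • y := by
  rw [← mul_smul, gA_tr, mul_smul, mul_smul]
  exact tr_fix (j := j + 1) (Nat.lt_succ_self j) _ (tr_lvl j 1 (gA_lvl i hy))

lemma sP_central (j : ℕ) (i : Fin 4) {y : Set Sq} (hy : y ∈ lvl j) :
    sP i • tr j 1 • y = tr j 1 • sP i • y := by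
  fin_cases i
  · exact gA_central 0 j hy
  · exact gA_central 1 j hy
  · exact gA_central 2 j hy
  · change tr 0 1 • tr j 1 • y = tr j 1 • tr 0 1 • y
    rw [← mul_smul, (tr_comm _ _ _ _).eq, mul_smul]

lemma t_cyl (c : ZMod 37) (j : ℤ) (x : Sq) :
    (tr 0 c * sh) • cyl j x = cyl (j + 1) (tr 0 c (sh x)) := by
  rw [mul_smul, sh_cyl, tr_cyl]

lemma t_lvl (j : ℕ) (c : ZMod 37) {y : Set Sq} (hy : y ∈ lvl j) :
    (tr 0 c * sh) • y ∈ lvl (j + 1) := by
  obtain ⟨x, hx, rfl⟩ := hy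
  refine ⟨tr 0 c (sh x), fun m hm => ?_, by rw [t_cyl]; push_cast; rfl⟩
  rw [tr_apply, sh_apply, hx _ (by omega), if_neg (by omega), add_zero]

lemma t_ne (j : ℕ) {c c' : ZMod 37} (h : c ≠ c') {y y' : Set Sq} (hy : y ∈ lvl j)
    (hy' : y' ∈ lvl j) : (tr 0 c * sh) • y ≠ (tr 0 c' * sh) • y' := by
  obtain ⟨x, hx, rfl⟩ := hy
  obtain ⟨x', hx', rfl⟩ := hy'
  rw [t_cyl, t_cyl]
  intro he
  have := cyl_inj he (k := 0) (by omega)
  rw [tr_apply, tr_apply, sh_apply, sh_apply, hx _ (by omega), hx' _ (by omega)] at this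
  exact h (by simpa using this)

/-- the points of the first level -/
def base (c : ZMod 37) : Set Sq := cyl 1 (tr 0 c 0)

lemma base_inj : Function.Injective base := fun c c' h => by
  simpa [tr_apply] using cyl_inj h (k := 0) (by omega)

lemma base_lvl (c : ZMod 37) : base c ∈ lvl 0 :=
  ⟨tr 0 c 0, fun k hk => by rw [tr_apply, if_neg (by omega)]; simp, by simp [base]⟩

lemma gA_base (i : ℤ) (c : ZMod 37) : gA i • base c = base c := by
  rw [base, gA_cyl]
  refine cyl_congr fun k hk => ?_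
  rw [gA_apply, tr_apply 0 c 0 (k - 1), if_neg (by omega : ¬ k - 1 = 0)]
  simp

lemma tr_base (c : ZMod 37) : tr 0 1 • base c = base (c + 1) := by
  rw [base, tr_cyl]
  refine cyl_congr fun k _ => ?_
  simp only [tr_apply]
  split_ifs <;> ring

lemma sP_base (a : Fin 4) : ∃ τ : ZMod 37 ≃ ZMod 37, ∀ c, sP a • base c = base (τ c) := by
  fin_cases a
  exacts [⟨Equiv.refl _, gA_base 0⟩, ⟨Equiv.refl _, gA_base 1⟩, ⟨Equiv.refl _, gA_base 2⟩,
    ⟨Equiv.addRight 1, tr_base⟩]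

/-- the five generators -/
def gP : Option (Fin 4) → Equiv.Perm Sq
  | none => sh
  | some i => sP i

/-- the group -/
abbrev GP : Subgroup (Equiv.Perm Sq) := Subgroup.closure (Set.range gP)

lemma gP_mem (k : Option (Fin 4)) : gP k ∈ GP := Subgroup.subset_closure ⟨k, rfl⟩

lemma ΓP_le {g : Equiv.Perm Sq} (hg : g ∈ ΓP) : g ∈ GP := by
  refine (Submonoid.closure_le (S := GP.toSubmonoid)).2 ?_ hg
  rintro _ ⟨i, rfl⟩
  exact gP_mem (some i)

/-- the generators inside the group -/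
def sG (i : Fin 4) : GP := ⟨sP i, gP_mem (some i)⟩

lemma mem_closure_sG {g : GP} (hg : (g : Equiv.Perm Sq) ∈ ΓP) :
    g ∈ Submonoid.closure (Set.range sG) := by
  have h1 : (Submonoid.closure (Set.range sG)).map GP.subtype = ΓP := by
    rw [MonoidHom.map_mclosure, ← Set.range_comp]; rfl
  rw [← h1] at hg
  obtain ⟨g', hg', he⟩ := hg
  rwa [← Subtype.ext he]

lemma gens_sG : Gens 37 sG where
  pow i := Subtype.ext (gens_sP.pow i)
  heis i j hij := by
    obtain ⟨c, h1, h2, h3, h4⟩ := gens_sP.heis i j hij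
    have hc : c ∈ GP := by
      have : c = sP i * sP j * (sP i)⁻¹ * (sP j)⁻¹ := by rw [h4]; group
      rw [this]
      exact GP.mul_mem (GP.mul_mem (GP.mul_mem (gP_mem (some i)) (gP_mem (some j)))
        (GP.inv_mem (gP_mem (some i)))) (GP.inv_mem (gP_mem (some j)))
    exact ⟨⟨c, hc⟩, Subtype.ext h1, Subtype.ext h2, Subtype.ext h3, Subtype.ext h4⟩

theorem exists_nonembeddable :
    ∃ (A : Type) (_ : CStarAlgebra A), Nontrivial A ∧ TopologicalSpace.SeparableSpace A ∧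
      ∀ (B : Type u) [CStarAlgebra B] (S : Fin 2 → B), CuntzFam S →
        (StarAlgebra.adjoin ℂ (Set.range S)).topologicalClosure = ⊤ →
        ∀ (ω : Ultrafilter ℕ) (φ : A →⋆ₙₐ[ℂ] Ultrapower B ω), ¬ Function.Injective φ := by
  refine exists_algebra (G := GP) (Y := Set Sq) (p := 37) (by norm_num) (by norm_num) gens_sG
    (fun k => ⟨gP k, gP_mem k⟩) ?_ lvl (fun j => ⟨tr j 1, ΓP_le (tr_mem j)⟩)
    (fun j i y hy => sP_lvl j i hy) (fun j i y hy => sP_central j i hy)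
    (fun j y hy => tr_lvl j 1 hy) (fun j => mem_closure_sG (tr_mem j))
    (fun i j hij y hy => tr_fix hij 1 hy) (fun j => Subtype.ext (tr_pow_37 _ _))
    (fun c : ZMod 37 => ⟨tr 0 c * sh, GP.mul_mem (ΓP_le (tr_zero_mem c)) (gP_mem none)⟩)
    (fun i => ?_) (fun j c y hy => t_lvl j c hy) (fun j c => Subtype.ext ?_)
    (fun j c c' h y hy y' hy' => t_ne j h hy hy') base base_inj base_lvl sP_base 0 ?_
  · have := Subgroup.closure_closure_coe_preimage (k := Set.range gP)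
    rw [← this]
    congr 1
    ext g
    simp only [Set.mem_range, Set.mem_preimage, Subtype.ext_iff]
  · obtain ⟨σ, hσ⟩ := step_sP i
    refine ⟨σ, fun c => ?_⟩
    obtain ⟨g, hg, he⟩ := hσ c
    exact ⟨⟨g, ΓP_le hg⟩, mem_closure_sG hg, Subtype.ext he⟩
  · change tr 0 c * sh * tr j 1 = tr (j + 1 : ℕ) 1 * (tr 0 c * sh)
    push_cast
    rw [mul_assoc, ← tr_sh, ← mul_assoc, ← mul_assoc, (tr_comm _ _ _ _).eq]
  · intro h
    have h' : base 0 = base (0 + 1) := h.trans (tr_base 0)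
    exact absurd (base_inj h') (by decide)

end Vale.Agent.P083
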