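import Vale.Agent.P083.Main

/-!
Permutation representations and the non-embedding theorem for a group action with levels.
-/

namespace Vale.Agent.P083

open scoped InnerProductSpace
open Finset

universe u

/-- square-summable functions -/
abbrev Ltwo (Y : Type) : Type := lp (fun _ : Y => ℂ) 2

variable {Y : Type}

/-- the isometry given by a permutation -/
noncomputable def permIso (σ : Equiv.Perm Y) : Ltwo Y →ₗᵢ[ℂ] Ltwo Y :=
  LinearMap.isometryOfInner
    { toFun := fun f => ⟨fun y => f (σ.symm y), memℓp_gen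
        ((σ.symm.summable_iff (f := fun y => ‖f y‖ ^ (2 : ENNReal).toReal)).2
          ((lp.memℓp f).summable (by norm_num)))⟩
      map_add' := fun _ _ => rfl
      map_smul' := fun _ _ => rfl }
    fun f g => by
      rw [lp.inner_eq_tsum, lp.inner_eq_tsum]
      exact σ.symm.tsum_eq fun y => ⟪f y, g y⟫_ℂ

variable {G : Type*} [Group G] [MulAction G Y]

variable (G Y) in
/-- the permutation representation -/
noncomputable def permRep : G →* (Ltwo Y →L[ℂ] Ltwo Y) where
  toFun g := (permIso (MulAction.toPerm g)).toContinuousLinearMap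
  map_one' := by
    ext f y
    change f ((1 : G)⁻¹ • y) = f y
    rw [inv_one, one_smul]
  map_mul' g h := by
    ext f y
    change f ((g * h)⁻¹ • y) = f (h⁻¹ • g⁻¹ • y)
    rw [mul_inv_rev, mul_smul]

lemma permRep_apply (g : G) (f : Ltwo Y) (y : Y) : permRep Y G g f y = f (g⁻¹ • y) := rfl

lemma isURep_permRep : IsURep (permRep Y G) := fun g f f' =>
  (permIso (MulAction.toPerm g)).inner_map_map f f'

open Classical in
/-- point masses -/
noncomputable def pt (y : Y) : Ltwo Y := lp.single 2 y (1 : ℂ)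

open Classical in
lemma pt_apply (y z : Y) : pt y z = if z = y then 1 else 0 := by
  rw [pt, lp.single_apply, Pi.single_apply]

lemma permRep_pt (g : G) (y : Y) : permRep Y G g (pt y) = pt (g • y) := by
  classical
  ext z
  rw [permRep_apply, pt_apply, pt_apply]
  exact if_congr inv_smul_eq_iff rfl rfl

open Classical in
lemma inner_pt (y z : Y) : ⟪pt y, pt z⟫_ℂ = if y = z then 1 else 0 := by
  rw [pt, lp.inner_single_left, pt_apply]
  split_ifs <;> simp

lemma norm_pt (y : Y) : ‖pt y‖ = 1 := by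
  classical
  rw [pt, lp.norm_single (by norm_num), norm_one]

lemma separable_generated {D : Type*} [CStarAlgebra D] {κ : Type*} [Countable κ] (f : κ → D) :
    TopologicalSpace.SeparableSpace
      (StarAlgebra.adjoin ℂ (Set.range f)).topologicalClosure := by
  have h1 : Set.range f ∪ star (Set.range f) = Set.range (Sum.elim f fun k => star (f k)) := by
    rw [Set.Sum.elim_range]
    congr 1
    ext x
    simp only [Set.mem_star, Set.mem_range]
    exact ⟨fun ⟨k, hk⟩ => ⟨k, by rw [hk, star_star]⟩, fun ⟨k, hk⟩ => ⟨k, by rw [← hk, star_star]⟩⟩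
  have h2 : (Submonoid.closure (Set.range f ∪ star (Set.range f)) : Set D).Countable := by
    rw [h1, ← FreeMonoid.mrange_lift]
    have : Countable (FreeMonoid (κ ⊕ κ)) := inferInstanceAs (Countable (List (κ ⊕ κ)))
    exact Set.countable_range _
  have h3 : TopologicalSpace.IsSeparable (StarAlgebra.adjoin ℂ (Set.range f) : Set D) := by
    have := (h2.isSeparable).span (R := ℂ)
    rw [← Algebra.adjoin_eq_span] at this
    exact this
  exact h3.closure.separableSpace

/-- level subspaces of a permutation representation -/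
noncomputable def lev (X : ℕ → Set Y) (ζ : ℕ → G) (j : ℕ) : Submodule ℂ (Ltwo Y) :=
  Submodule.span ℂ {f | ∃ y ∈ X j, f = pt y - pt (ζ j • y)}

lemma lev_gen {X : ℕ → Set Y} {ζ : ℕ → G} {j : ℕ} {y : Y} (hy : y ∈ X j) :
    pt y - pt (ζ j • y) ∈ lev X ζ j := Submodule.subset_span ⟨y, hy, rfl⟩

lemma lev_le {X : ℕ → Set Y} {ζ : ℕ → G} {j : ℕ} {M : Submodule ℂ (Ltwo Y)}
    (h : ∀ y ∈ X j, pt y - pt (ζ j • y) ∈ M) : lev X ζ j ≤ M := by
  refine Submodule.span_le.2 ?_
  rintro _ ⟨y, hy, rfl⟩
  exact h y hy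

theorem exists_algebra {p : ℕ} (hp : p.Prime) (h36 : 36 ≤ p) {s : Fin 4 → G} (hs : Gens p s)
    {κ : Type} [Countable κ] (γ : κ → G) (hγ : Subgroup.closure (Set.range γ) = ⊤)
    (X : ℕ → Set Y) (ζ : ℕ → G)
    (hX : ∀ j i, ∀ y ∈ X j, s i • y ∈ X j)
    (hc : ∀ j i, ∀ y ∈ X j, s i • ζ j • y = ζ j • s i • y)
    (hζX : ∀ j, ∀ y ∈ X j, ζ j • y ∈ X j)
    (hζ : ∀ j, ζ j ∈ Submonoid.closure (Set.range s))
    (hfix : ∀ i j, i < j → ∀ y ∈ X i, ζ j • y = y)
    (hζp : ∀ j, ζ j ^ p = 1)
    {ι : Type*} [Fintype ι] [Nonempty ι] (t : ι → G)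
    (ht : ∀ i, ∃ σ : ι ≃ ι, ∀ c, ∃ g ∈ Submonoid.closure (Set.range s),
      s i * t c = t (σ c) * g)
    (htX : ∀ j c, ∀ y ∈ X j, t c • y ∈ X (j + 1))
    (htζ : ∀ j c, t c * ζ j = ζ (j + 1) * t c)
    (hto : ∀ j c c', c ≠ c' → ∀ y ∈ X j, ∀ y' ∈ X j, t c • y ≠ t c' • y')
    {I : Type} [Fintype I] (y : I → Y) (hy : Function.Injective y) (hyX : ∀ i, y i ∈ X 0)
    (hτ : ∀ a, ∃ τ : I ≃ I, ∀ i, s a • y i = y (τ i)) (i₀ : I) (hi₀ : y i₀ ≠ ζ 0 • y i₀) :
    ∃ (A : Type) (_ : CStarAlgebra A), Nontrivial A ∧ TopologicalSpace.SeparableSpace A ∧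
      ∀ (B : Type u) [CStarAlgebra B] (S : Fin 2 → B), CuntzFam S →
        (StarAlgebra.adjoin ℂ (Set.range S)).topologicalClosure = ⊤ →
        ∀ (ω : Ultrafilter ℕ) (φ : A →⋆ₙₐ[ℂ] Ultrapower B ω), ¬ Function.Injective φ := by
  classical
  set ρ := permRep Y G with hρdef
  have hρ : IsURep ρ := isURep_permRep
  let r : I → (Ltwo Y →L[ℂ] Ltwo Y) := fun i => InnerProductSpace.rankOne ℂ (pt (y i)) (pt (y i₀))
  let A := (StarAlgebra.adjoin ℂ (Set.range (Sum.elim (fun k => ρ (γ k)) r))).topologicalClosure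
  have hgenA : ∀ z, Sum.elim (fun k => ρ (γ k)) r z ∈ A := fun z =>
    StarSubalgebra.le_topologicalClosure _ (StarAlgebra.subset_adjoin ℂ _ ⟨z, rfl⟩)
  have hstar : ∀ g, star (ρ g) = ρ g⁻¹ := fun g => by
    rw [ContinuousLinearMap.star_eq_adjoint, eq_comm, ContinuousLinearMap.eq_adjoint_iff]
    intro x z
    rw [hρ.inner_left, inv_inv]
  have hA : ∀ g, ρ g ∈ A := fun g => by
    have hg : g ∈ Subgroup.closure (Set.range γ) := by rw [hγ]; trivial
    induction hg using Subgroup.closure_induction with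
    | mem g hg => obtain ⟨k, rfl⟩ := hg; exact hgenA (Sum.inl k)
    | one => rw [map_one]; exact A.one_mem
    | mul g h _ _ hg hh => rw [map_mul]; exact A.mul_mem hg hh
    | inv g _ hg => rw [← hstar]; exact star_mem hg
  have hclosed : IsClosed (A : Set (Ltwo Y →L[ℂ] Ltwo Y)) :=
    StarSubalgebra.isClosed_topologicalClosure _
  have hnt : Nontrivial A := by
    refine ⟨1, 0, fun h => ?_⟩
    have h1 := congrArg (fun a : A => ‖(a : Ltwo Y →L[ℂ] Ltwo Y) (pt (y i₀))‖) h
    simp [norm_pt] at h1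
  refine ⟨A, StarSubalgebra.cstarAlgebra A, hnt, separable_generated _,
    fun B _ S hS hgen ω φ => ?_⟩
  have hL : Levels p s ρ (lev X ζ) ζ :=
    { inv := fun j i => lev_le (M := (lev X ζ j).comap (ρ (s i)).toLinearMap) fun z hz => by
        change ρ (s i) _ ∈ lev X ζ j
        rw [map_sub, permRep_pt, permRep_pt, hc j i z hz]
        exact lev_gen (hX j i z hz)
      mem := hζ
      fix := fun i j hij => lev_le
        (M := LinearMap.eqLocus (ρ (ζ j)).toLinearMap LinearMap.id) fun z hz => by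
        change ρ (ζ j) _ = _
        rw [map_sub, permRep_pt, permRep_pt, hfix i j hij z hz, hfix i j hij _ (hζX i z hz)]
        rfl
      sum := fun j w hw => by
        have := lev_le (X := X) (ζ := ζ) (j := j)
          (M := LinearMap.ker (∑ k ∈ range p, ρ (ζ j ^ k)).toLinearMap) (fun z _ => by
            change (∑ k ∈ range p, ρ (ζ j ^ k)) _ = 0
            rw [_root_.sum_apply]
            simp only [map_sub, hρdef, permRep_pt, ← mul_smul, ← pow_succ]
            rw [Finset.sum_range_sub' (fun k => pt (ζ j ^ k • z)), hζp, pow_zero, sub_self]) hw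
        rw [← _root_.sum_apply]
        exact this }
  refine no_embedding' hp h36 hs hρ hL t ht
    (fun j c => lev_le (M := (lev X ζ (j + 1)).comap (ρ (t c)).toLinearMap) fun z hz => ?_)
    (fun j c c' hcc w hw w' hw' => ?_) (ρ.codRestrict A.toSubalgebra.toSubmonoid hA)
    (fun g => Subtype.ext ?_) (fun i => ⟨r i, hgenA (Sum.inr i)⟩)
    (fun i => pt (y i) - pt (ζ 0 • y i)) (fun i => lev_gen (hyX i)) (fun a => ?_)
    (norm_pt (y i₀)).le ?_ hS hgen ω φ
  · change ρ (t c) _ ∈ lev X ζ (j + 1)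
    rw [map_sub, permRep_pt, permRep_pt, ← mul_smul, htζ, mul_smul]
    exact lev_gen (htX j c z hz)
  · induction hw using Submodule.span_induction with
    | mem w hw =>
      obtain ⟨z, hz, rfl⟩ := hw
      induction hw' using Submodule.span_induction with
      | mem w' hw' =>
        obtain ⟨z', hz', rfl⟩ := hw'
        simp only [map_sub, hρdef, permRep_pt, inner_sub_left, inner_sub_right, inner_pt,
          if_neg (hto j c c' hcc _ hz _ hz'), if_neg (hto j c c' hcc _ (hζX j _ hz) _ hz'),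
          if_neg (hto j c c' hcc _ hz _ (hζX j _ hz')),
          if_neg (hto j c c' hcc _ (hζX j _ hz) _ (hζX j _ hz')), sub_self]
      | zero => simp
      | add a b _ _ ha hb => rw [map_add, inner_add_right, ha, hb, add_zero]
      | smul a b _ hb => rw [map_smul, inner_smul_right, hb, mul_zero]
    | zero => simp
    | add a b _ _ ha hb => rw [map_add, inner_add_left, ha, hb, add_zero]
    | smul a b _ hb => rw [map_smul, inner_smul_left, hb, mul_zero]
  · change star (ρ g) * ρ g = 1
    rw [hstar, ← map_mul, inv_mul_cancel, map_one]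
  · obtain ⟨τ, hτ⟩ := hτ a
    refine ⟨τ, fun i => ⟨Subtype.ext ?_, ?_⟩⟩
    · change ρ (s a) * r i = r (τ i)
      ext1 f
      simp only [r, mul_apply_eq_comp, InnerProductSpace.rankOne_apply, map_smul, hρdef,
        permRep_pt, hτ]
    · rw [map_sub, permRep_pt, permRep_pt, hc 0 a _ (hyX i), hτ]
  · intro h0
    have h1 := congrArg (fun a : A => ⟪pt (y i₀), (a : Ltwo Y →L[ℂ] Ltwo Y) (pt (y i₀))⟫_ℂ) h0
    simp only [AddSubmonoidClass.coe_finsetSum, SetLike.val_smul, _root_.sum_apply, smul_apply, r,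
      InnerProductSpace.rankOne_apply, inner_sum, inner_smul_right, inner_pt, hy.eq_iff,
      if_true, one_mul, ZeroMemClass.coe_zero, zero_apply, inner_zero_right] at h1
    rw [Finset.sum_eq_single i₀ (fun i _ hi => by rw [if_neg hi.symm, mul_zero]) (by simp),
      inner_sub_right, inner_pt, inner_pt, if_neg hi₀] at h1
    simp at h1

end Vale.Agent.P083
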