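import Vale.Agent.P083.Gap

/-!
Tensor products of subspaces, contractions, Schmidt bases and the conjugate space.
-/

namespace Vale.Agent.P083

open scoped InnerProductSpace TensorProduct ComplexConjugate
open Finset TensorProduct

section Tens

variable {H L H' L' : Type*} [NormedAddCommGroup H] [InnerProductSpace ℂ H]
  [NormedAddCommGroup L] [InnerProductSpace ℂ L] [NormedAddCommGroup H'] [InnerProductSpace ℂ H']
  [NormedAddCommGroup L'] [InnerProductSpace ℂ L']

/-- the span of the elementary tensors of two subspaces -/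
def tens (K : Submodule ℂ H) (W : Submodule ℂ L) : Submodule ℂ (H ⊗[ℂ] L) :=
  Submodule.span ℂ {t | ∃ h ∈ K, ∃ w ∈ W, t = h ⊗ₜ[ℂ] w}

lemma tmul_mem_tens {K : Submodule ℂ H} {W : Submodule ℂ L} {h : H} {w : L} (hh : h ∈ K)
    (hw : w ∈ W) : h ⊗ₜ[ℂ] w ∈ tens K W :=
  Submodule.subset_span ⟨h, hh, w, hw, rfl⟩

lemma tens_induction {K : Submodule ℂ H} {W : Submodule ℂ L} {P : H ⊗[ℂ] L → Prop}
    (h0 : P 0) (ht : ∀ h ∈ K, ∀ w ∈ W, P (h ⊗ₜ[ℂ] w)) (hadd : ∀ x y, P x → P y → P (x + y))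
    {x : H ⊗[ℂ] L} (hx : x ∈ tens K W) : P x := by
  have : ∀ c : ℂ, P (c • x) := by
    induction hx using Submodule.span_induction with
    | mem x hx =>
      obtain ⟨h, hh, w, hw, rfl⟩ := hx
      intro c
      rw [smul_tmul']
      exact ht _ (K.smul_mem c hh) _ hw
    | zero => simpa using h0
    | add x y _ _ hx hy => intro c; rw [smul_add]; exact hadd _ _ (hx c) (hy c)
    | smul a x _ hx => intro c; rw [smul_smul]; exact hx _
  simpa using this 1

lemma mapL_mem_tens {K : Submodule ℂ H} {W : Submodule ℂ L} {K' : Submodule ℂ H'}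
    {W' : Submodule ℂ L'} {a : H →L[ℂ] H'} {b : L →L[ℂ] L'} (ha : ∀ h ∈ K, a h ∈ K')
    (hb : ∀ w ∈ W, b w ∈ W') {x : H ⊗[ℂ] L} (hx : x ∈ tens K W) : mapL a b x ∈ tens K' W' := by
  refine tens_induction (P := fun x => mapL a b x ∈ tens K' W') ?_ ?_ ?_ hx
  · rw [map_zero]; exact Submodule.zero_mem _
  · intro h hh w hw; rw [mapL_tmul]; exact tmul_mem_tens (ha h hh) (hb w hw)
  · intro x y hx hy; rw [map_add]; exact Submodule.add_mem _ hx hy

lemma tens_mono {K K' : Submodule ℂ H} {W W' : Submodule ℂ L} (hK : K ≤ K') (hW : W ≤ W') :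
    tens K W ≤ tens K' W' := by
  refine Submodule.span_mono ?_
  rintro _ ⟨h, hh, w, hw, rfl⟩
  exact ⟨h, hK hh, w, hW hw, rfl⟩

lemma inner_tens_eq_zero {K K' : Submodule ℂ H} {W W' : Submodule ℂ L}
    (h : ∀ k ∈ K, ∀ k' ∈ K', ∀ w ∈ W, ∀ w' ∈ W', ⟪k, k'⟫_ℂ * ⟪w, w'⟫_ℂ = 0)
    {x y : H ⊗[ℂ] L} (hx : x ∈ tens K W) (hy : y ∈ tens K' W') : ⟪x, y⟫_ℂ = 0 := by
  refine tens_induction (P := fun x => ⟪x, y⟫_ℂ = 0) (by simp) ?_ ?_ hx
  · intro k hk w hw
    refine tens_induction (P := fun y => ⟪k ⊗ₜ[ℂ] w, y⟫_ℂ = 0) (by simp) ?_ ?_ hy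
    · intro k' hk' w' hw'; rw [inner_tmul]; exact h k hk k' hk' w hw w' hw'
    · intro x y hx hy; rw [inner_add_right, hx, hy, add_zero]
  · intro x y hx hy; rw [inner_add_left, hx, hy, add_zero]

lemma inner_mapL_left {a : H →L[ℂ] H'} {a' : H' →L[ℂ] H} {b : L →L[ℂ] L'} {b' : L' →L[ℂ] L}
    (ha : ∀ x y, ⟪a x, y⟫_ℂ = ⟪x, a' y⟫_ℂ) (hb : ∀ x y, ⟪b x, y⟫_ℂ = ⟪x, b' y⟫_ℂ)
    (x : H ⊗[ℂ] L) (y : H' ⊗[ℂ] L') : ⟪mapL a b x, y⟫_ℂ = ⟪x, mapL a' b' y⟫_ℂ := by
  induction x with
  | zero => simp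
  | add x x' hx hx' => rw [map_add, inner_add_left, inner_add_left, hx, hx']
  | tmul h w =>
    induction y with
    | zero => simp
    | add y y' hy hy' => rw [map_add, inner_add_right, inner_add_right, hy, hy']
    | tmul h' w' => rw [mapL_tmul, mapL_tmul, inner_tmul, inner_tmul, ha, hb]

variable {G : Type*} [Group G]

/-- tensor product of representations -/
noncomputable def tensRep (V : G →* (H →L[ℂ] H)) (V' : G →* (L →L[ℂ] L)) :
    G →* (H ⊗[ℂ] L →L[ℂ] H ⊗[ℂ] L) where
  toFun g := mapL (V g) (V' g)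
  map_one' := by rw [map_one, map_one]; exact mapL_id_id
  map_mul' g h := by rw [map_mul, map_mul, mapL_mul]

lemma tensRep_apply (V : G →* (H →L[ℂ] H)) (V' : G →* (L →L[ℂ] L)) (g : G) :
    tensRep V V' g = mapL (V g) (V' g) := rfl

lemma IsURep.inner_left {V : G →* (H →L[ℂ] H)} (hV : IsURep V) (g : G) (x y : H) :
    ⟪V g x, y⟫_ℂ = ⟪x, V g⁻¹ y⟫_ℂ := by
  rw [← hV g x, ← rep_mul_apply, mul_inv_cancel, map_one, one_apply_eq_self]

lemma IsURep.tensRep {V : G →* (H →L[ℂ] H)} {V' : G →* (L →L[ℂ] L)} (hV : IsURep V)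
    (hV' : IsURep V') : IsURep (tensRep V V') := by
  intro g x y
  rw [tensRep_apply, inner_mapL_left (hV.inner_left g) (hV'.inner_left g), ← tensRep_apply,
    ← tensRep_apply, ← rep_mul_apply, inv_mul_cancel, map_one, one_apply_eq_self]

lemma isURep_one : IsURep (1 : G →* (H →L[ℂ] H)) := fun _ _ _ => rfl

lemma IsURep.opNorm_le {V : G →* (H →L[ℂ] H)} (hV : IsURep V) (g : G) : ‖V g‖ ≤ 1 :=
  ContinuousLinearMap.opNorm_le_bound _ zero_le_one fun x => by rw [hV.norm_map, one_mul]

/-- contraction of the first factor against a vector -/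
noncomputable def contr (k : H) : H ⊗[ℂ] L →ₗ[ℂ] L :=
  (TensorProduct.lid ℂ L).toLinearMap ∘ₗ LinearMap.rTensor L (innerₛₗ ℂ k : H →ₗ[ℂ] ℂ)

@[simp] lemma contr_tmul (k h : H) (w : L) : contr k (h ⊗ₜ[ℂ] w) = ⟪k, h⟫_ℂ • w := by
  simp [contr]

lemma contr_add (k k' : H) (x : H ⊗[ℂ] L) : contr (k + k') x = contr k x + contr k' x := by
  induction x with
  | zero => simp
  | add x x' hx hx' => simp only [map_add, hx, hx']; abel
  | tmul h w => simp [inner_add_left, add_smul]

lemma contr_smul (c : ℂ) (k : H) (x : H ⊗[ℂ] L) : contr (c • k) x = conj c • contr k x := by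
  induction x with
  | zero => simp
  | add x x' hx hx' => simp only [map_add, hx, hx', smul_add]
  | tmul h w => simp only [contr_tmul, inner_smul_left, mul_smul]

lemma contr_sum {ι : Type*} (s : Finset ι) (k : ι → H) (x : H ⊗[ℂ] L) :
    contr (∑ i ∈ s, k i) x = ∑ i ∈ s, contr (k i) x := by
  classical
  induction s using Finset.induction_on with
  | empty => simpa using contr_smul 0 (0 : H) x
  | insert a s ha ih => rw [Finset.sum_insert ha, Finset.sum_insert ha, contr_add, ih]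

lemma contr_mem {K : Submodule ℂ H} {W : Submodule ℂ L} (k : H) {x : H ⊗[ℂ] L}
    (hx : x ∈ tens K W) : contr k x ∈ W := by
  refine tens_induction (P := fun x => contr k x ∈ W) ?_ ?_ ?_ hx
  · simp
  · intro h _ w hw; rw [contr_tmul]; exact W.smul_mem _ hw
  · intro x y hx hy; rw [map_add]; exact W.add_mem hx hy

lemma sum_tmul_contr {K : Submodule ℂ H} {W : Submodule ℂ L} {ι : Type*} [Fintype ι]
    (e : OrthonormalBasis ι ℂ K) {x : H ⊗[ℂ] L} (hx : x ∈ tens K W) :
    ∑ l, (e l : H) ⊗ₜ[ℂ] contr (e l : H) x = x := by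
  refine tens_induction (P := fun x => ∑ l, (e l : H) ⊗ₜ[ℂ] contr (e l : H) x = x) ?_ ?_ ?_ hx
  · simp
  · intro h hh w _
    simp only [contr_tmul, ← smul_tmul, ← sum_tmul]
    congr 1
    have := congrArg (Subtype.val : K → H) (e.sum_repr' ⟨h, hh⟩)
    simpa using this
  · intro x y hx hy
    simp only [map_add, tmul_add, Finset.sum_add_distrib, hx, hy]

lemma exists_schmidt (K : Submodule ℂ H) [FiniteDimensional ℂ K] (x : H ⊗[ℂ] L) :
    ∃ e : OrthonormalBasis (Fin (Module.finrank ℂ K)) ℂ K,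
      ∀ l l', l ≠ l' → ⟪contr (e l : H) x, contr (e l' : H) x⟫_ℂ = 0 := by
  let b := stdOrthonormalBasis ℂ K
  let R : K →ₗ[ℂ] K :=
    { toFun := fun k => ∑ l, ⟪contr (k : H) x, contr (b l : H) x⟫_ℂ • b l
      map_add' := fun k k' => by
        simp only [Submodule.coe_add, contr_add, inner_add_left, add_smul, Finset.sum_add_distrib]
      map_smul' := fun c k => by
        simp only [Submodule.coe_smul, contr_smul, inner_smul_left, Complex.conj_conj, mul_smul,
          RingHom.id_apply, Finset.smul_sum] }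
  have hR : ∀ k k' : K, ⟪k, R k'⟫_ℂ = ⟪contr (k' : H) x, contr (k : H) x⟫_ℂ := by
    intro k k'
    have hk : (k : H) = ∑ l, ⟪b l, k⟫_ℂ • (b l : H) := by
      have := congrArg (Subtype.val : K → H) (b.sum_repr' k)
      simpa using this.symm
    conv_rhs => rw [hk]
    simp only [R, LinearMap.coe_mk, AddHom.coe_mk, inner_sum, inner_smul_right, contr_sum,
      contr_smul, inner_conj_symm, mul_comm]
  have hs : R.IsSymmetric := fun k k' => by
    rw [← inner_conj_symm, hR, hR, inner_conj_symm]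
  refine ⟨hs.eigenvectorBasis rfl, fun l l' hl => ?_⟩
  rw [← hR, hs.apply_eigenvectorBasis, inner_smul_right,
    (hs.eigenvectorBasis rfl).orthonormal.inner_eq_zero hl.symm, mul_zero]

end Tens

section Conj

/-- the conjugate space -/
def Conj (E : Type*) : Type _ := E

variable {E : Type*} [NormedAddCommGroup E] [InnerProductSpace ℂ E]

instance : NormedAddCommGroup (Conj E) := inferInstanceAs (NormedAddCommGroup E)

/-- the identity map to the conjugate space -/
def toConj : E ≃+ Conj E := AddEquiv.refl E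

noncomputable instance : Module ℂ (Conj E) := Module.compHom E (starRingEnd ℂ)

lemma smul_toConj (c : ℂ) (x : E) : c • toConj x = toConj (conj c • x) := rfl

lemma toConj_smul (c : ℂ) (x : E) : toConj (c • x) = conj c • toConj x := by
  rw [smul_toConj, Complex.conj_conj]

@[simp] lemma norm_toConj (x : E) : ‖toConj x‖ = ‖x‖ := rfl

noncomputable instance : NormedSpace ℂ (Conj E) where
  norm_smul_le c x := by
    obtain ⟨x, rfl⟩ := toConj.surjective x
    rw [smul_toConj, norm_toConj, norm_toConj, norm_smul, Complex.norm_conj]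

noncomputable instance : InnerProductSpace ℂ (Conj E) where
  inner x y := ⟪toConj.symm y, toConj.symm x⟫_ℂ
  norm_sq_eq_re_inner x := norm_sq_eq_re_inner (𝕜 := ℂ) (toConj.symm x)
  conj_inner_symm x y := inner_conj_symm _ _
  add_left x y z := by rw [map_add, inner_add_right]
  smul_left x y r := by
    obtain ⟨x, rfl⟩ := toConj.surjective x
    rw [smul_toConj, AddEquiv.symm_apply_apply, AddEquiv.symm_apply_apply, inner_smul_right]

lemma inner_toConj (x y : E) : ⟪toConj x, toConj y⟫_ℂ = ⟪y, x⟫_ℂ := rfl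

/-- the conjugate operator -/
noncomputable def conjOp (T : E →L[ℂ] E) : Conj E →L[ℂ] Conj E :=
  LinearMap.mkContinuous
    { toFun := fun x => toConj (T (toConj.symm x))
      map_add' := fun x y => by simp
      map_smul' := fun c x => by
        obtain ⟨x, rfl⟩ := toConj.surjective x
        rw [smul_toConj, AddEquiv.symm_apply_apply, AddEquiv.symm_apply_apply, map_smul,
          RingHom.id_apply, smul_toConj] }
    ‖T‖ fun x => T.le_opNorm (toConj.symm x)

lemma conjOp_toConj (T : E →L[ℂ] E) (x : E) : conjOp T (toConj x) = toConj (T x) := rfl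

variable {G : Type*} [Group G]

/-- the conjugate representation -/
noncomputable def conjRep (V : G →* (E →L[ℂ] E)) : G →* (Conj E →L[ℂ] Conj E) where
  toFun g := conjOp (V g)
  map_one' := by rw [map_one]; rfl
  map_mul' g h := by rw [map_mul]; rfl

lemma conjRep_toConj (V : G →* (E →L[ℂ] E)) (g : G) (x : E) :
    conjRep V g (toConj x) = toConj (V g x) := rfl

lemma IsURep.conjRep {V : G →* (E →L[ℂ] E)} (hV : IsURep V) : IsURep (conjRep V) := by
  intro g x y
  obtain ⟨x, rfl⟩ := toConj.surjective x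
  obtain ⟨y, rfl⟩ := toConj.surjective y
  rw [conjRep_toConj, conjRep_toConj, inner_toConj, inner_toConj, hV]

/-- the conjugate subspace -/
def conjSub (W : Submodule ℂ E) : Submodule ℂ (Conj E) where
  carrier := {x | toConj.symm x ∈ W}
  add_mem' hx hy := W.add_mem hx hy
  zero_mem' := W.zero_mem
  smul_mem' c _ hx := W.smul_mem (conj c) hx

lemma toConj_mem_conjSub {W : Submodule ℂ E} {x : E} : toConj x ∈ conjSub W ↔ x ∈ W := Iff.rfl

end Conj

end Vale.Agent.P083
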